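import Mathlib

namespace Vale.Agent.Lib.P037

open Finset

variable {n : ℕ}

/-- Final family for the identity pattern. -/
theorem chain_final (T : Finset (Fin n)) (S : Fin n → Finset (Fin n)) (w : Fin n → ℕ)
    (hmono : ∀ p q, w p < w q → p < q)
    (hex : ∀ p ∈ T, ∀ q ∈ T, p < q → ∀ c c', c < c' → c ∈ S p → c' ∉ S p → c ∉ S q → c' ∈ S q → False)
    (Q m : ℕ)
    (hmod : ∀ p ∈ T, ∀ q ∈ T, p ≠ q → w p = w q → (S p).card ≤ (S q).card →
      Q * (S p \ S q).card ≤ n)
    (hfam : ∀ W, (T.filter fun t => w t = W).card ≤ m) :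
    ∃ X : Fin n → Finset (Fin n),
      (∀ q ∈ T, X q ⊆ S q) ∧
      (∀ p ∈ T, ∀ q ∈ T, w p ≤ w q → ∀ c c', c < c' → c ∈ X p → c' ∉ X p → c ∉ X q → c' ∈ X q → False) ∧
      (∀ q ∈ T, Q * (S q \ X q).card ≤ m * n) := by
  classical
  -- the linear preorder on representatives
  set le' : Fin n → Fin n → Prop := fun p q =>
    (S p).card < (S q).card ∨ ((S p).card = (S q).card ∧ p ≤ q) with hle'
  have hrefl : ∀ p, le' p p := fun p => Or.inr ⟨rfl, le_rfl⟩
  have htrans : ∀ p q z, le' p q → le' q z → le' p z := by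
    intro p q z h1 h2
    rcases h1 with h1 | ⟨h1, h1'⟩ <;> rcases h2 with h2 | ⟨h2, h2'⟩
    · exact Or.inl (lt_trans h1 h2)
    · exact Or.inl (by omega)
    · exact Or.inl (by omega)
    · exact Or.inr ⟨by omega, le_trans h1' h2'⟩
  have htotal : ∀ p q, le' p q ∨ le' q p := by
    intro p q
    rcases lt_trichotomy (S p).card (S q).card with h | h | h
    · exact Or.inl (Or.inl h)
    · rcases le_total p q with h2 | h2
      · exact Or.inl (Or.inr ⟨h, h2⟩)
      · exact Or.inr (Or.inr ⟨h.symm, h2⟩)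
    · exact Or.inr (Or.inl h)
  set X : Fin n → Finset (Fin n) := fun p =>
    univ.filter fun c => ∀ z ∈ T, w z = w p → le' p z → c ∈ S z with hX
  have hnest : ∀ p q, w p = w q → le' p q → X p ⊆ X q := by
    intro p q hpq hle c hc
    obtain ⟨_, hc⟩ := mem_filter.1 hc
    refine mem_filter.2 ⟨mem_univ _, fun z hz hzw hz2 => ?_⟩
    exact hc z hz (by rw [hzw, hpq]) (htrans _ _ _ hle hz2)
  refine ⟨X, ?_, ?_, ?_⟩
  · intro q hq c hc
    exact (mem_filter.1 hc).2 q hq rfl (hrefl q)
  · intro p hp q hq hpq c c' _ h1 h2 h3 h4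
    rcases lt_or_eq_of_le hpq with hlt | heq
    · -- different windows
      have h5 : ∃ z ∈ T, w z = w p ∧ c' ∉ S z ∧ c ∈ S z := by
        by_contra hcon
        push Not at hcon
        apply h2
        refine mem_filter.2 ⟨mem_univ _, fun z hz hzw hz2 => ?_⟩
        by_contra h6
        exact (hcon z hz hzw h6) ((mem_filter.1 h1).2 z hz hzw hz2)
      have h6 : ∃ y ∈ T, w y = w q ∧ c ∉ S y ∧ c' ∈ S y := by
        by_contra hcon
        push Not at hcon
        apply h3
        refine mem_filter.2 ⟨mem_univ _, fun y hy hyw hy2 => ?_⟩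
        by_contra h7
        exact (hcon y hy hyw h7) ((mem_filter.1 h4).2 y hy hyw hy2)
      obtain ⟨z, hz, hzw, hz1, hz2⟩ := h5
      obtain ⟨y, hy, hyw, hy1, hy2⟩ := h6
      have hzy : z < y := hmono _ _ (by rw [hzw, hyw]; exact hlt)
      exact hex z hz y hy hzy c c' ‹_› hz2 hz1 hy1 hy2
    · rcases htotal p q with h | h
      · exact h3 (hnest p q heq h h1)
      · exact h2 (hnest q p heq.symm h h4)
  · intro q hq
    set Z := (T.filter fun t => w t = w q) with hZ
    have hsub : S q \ X q ⊆ Z.biUnion fun z => if le' q z then S q \ S z else ∅ := by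
      intro c hc
      obtain ⟨h1, h2⟩ := mem_sdiff.1 hc
      have h3 : ∃ z ∈ T, w z = w q ∧ le' q z ∧ c ∉ S z := by
        by_contra hcon
        push Not at hcon
        apply h2
        exact mem_filter.2 ⟨mem_univ _, fun z hz hzw hz2 => hcon z hz hzw hz2⟩
      obtain ⟨z, hz, hzw, hz2, hz3⟩ := h3
      rw [mem_biUnion]
      refine ⟨z, mem_filter.2 ⟨hz, hzw⟩, ?_⟩
      rw [if_pos hz2]
      exact mem_sdiff.2 ⟨h1, hz3⟩
    have hbd : ∀ z ∈ Z, Q * (if le' q z then S q \ S z else ∅).card ≤ n := by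
      intro z hz
      obtain ⟨hz1, hz2⟩ := mem_filter.1 hz
      by_cases hle : le' q z
      · rw [if_pos hle]
        by_cases hqz : q = z
        · subst hqz
          simp
        · apply hmod q hq z hz1 hqz hz2.symm
          rcases hle with h | ⟨h, _⟩
          · exact le_of_lt h
          · exact le_of_eq h
      · rw [if_neg hle]; simp
    calc Q * (S q \ X q).card
        ≤ Q * ∑ z ∈ Z, (if le' q z then S q \ S z else ∅).card :=
          Nat.mul_le_mul_left _ (le_trans (card_le_card hsub) card_biUnion_le)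
      _ = ∑ z ∈ Z, Q * (if le' q z then S q \ S z else ∅).card := by rw [mul_sum]
      _ ≤ ∑ _z ∈ Z, n := sum_le_sum hbd
      _ = Z.card * n := by rw [sum_const, smul_eq_mul]
      _ ≤ m * n := Nat.mul_le_mul_right _ (hfam _)

end Vale.Agent.Lib.P037
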