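import Mathlib

namespace Vale.Agent.Lib.P037

open Finset

variable {n : ℕ}

/-- One forest step at stage `W`. -/
def fstep (T : Finset (Fin n)) (S : Fin n → Finset (Fin n)) (w : Fin n → ℕ) (W : ℕ)
    (c c' : Fin n) : Prop :=
  c < c' ∧ ∃ p ∈ T, w p < W ∧ c ∈ S p ∧ c' ∈ S p

/-- Reachability at stage `W`. -/
def fstar (T : Finset (Fin n)) (S : Fin n → Finset (Fin n)) (w : Fin n → ℕ) (W : ℕ) :
    Fin n → Fin n → Prop :=
  Relation.ReflTransGen (fstep T S w W)

section
variable {T : Finset (Fin n)} {S : Fin n → Finset (Fin n)} {w : Fin n → ℕ}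

lemma fstar_refl (W : ℕ) (a : Fin n) : fstar T S w W a a := Relation.ReflTransGen.refl

lemma fstar_le {W : ℕ} {a b : Fin n} (h : fstar T S w W a b) : a ≤ b := by
  induction h with
  | refl => exact le_rfl
  | tail _ h2 ih => exact le_trans ih (le_of_lt h2.1)

lemma fstar_mono {W W' : ℕ} (hW : W ≤ W') {a b : Fin n} (h : fstar T S w W a b) :
    fstar T S w W' a b := by
  refine Relation.ReflTransGen.mono ?_ _ _ h
  rintro x y ⟨h1, p, hp, hpW, h3⟩
  exact ⟨h1, p, hp, lt_of_lt_of_le hpW hW, h3⟩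

lemma fstep_confl
    (hex : ∀ p ∈ T, ∀ q ∈ T, p < q → ∀ c c', c < c' → c ∈ S p → c' ∈ S p → c ∈ S q → c' ∈ S q)
    {W : ℕ} {a b c : Fin n} (h1 : fstep T S w W a b) (h2 : fstep T S w W a c) (hbc : b < c) :
    fstep T S w W b c := by
  obtain ⟨hab, p, hp, hpW, hap, hbp⟩ := h1
  obtain ⟨hac, q, hq, hqW, haq, hcq⟩ := h2
  refine ⟨hbc, ?_⟩
  rcases lt_trichotomy p q with hpq | hpq | hpq
  · exact ⟨q, hq, hqW, hex p hp q hq hpq a b hab hap hbp haq, hcq⟩
  · subst hpq
    exact ⟨p, hp, hpW, hbp, hcq⟩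
  · exact ⟨p, hp, hpW, hbp, hex q hq p hp hpq a c hac haq hcq hap⟩

lemma fstar_chain
    (hex : ∀ p ∈ T, ∀ q ∈ T, p < q → ∀ c c', c < c' → c ∈ S p → c' ∈ S p → c ∈ S q → c' ∈ S q)
    {W : ℕ} (k : ℕ) : ∀ (a b c : Fin n), n - a.val ≤ k → fstar T S w W a b → fstar T S w W a c →
      b ≤ c → fstar T S w W b c := by
  induction k with
  | zero =>
    intro a b c hk _ _ _
    have := a.isLt
    omega
  | succ k ih =>
    intro a b c hk hab hac hbc
    rcases Relation.ReflTransGen.cases_head hab with h1 | ⟨b1, h1, h1'⟩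
    · subst h1; exact hac
    · rcases Relation.ReflTransGen.cases_head hac with h2 | ⟨c1, h2, h2'⟩
      · subst h2
        have h3 : b = a := le_antisymm hbc (fstar_le hab)
        subst h3
        exact fstar_refl _ _
      · have hab1 : a < b1 := h1.1
        have hac1 : a < c1 := h2.1
        have hk1 : n - b1.val ≤ k := by
          have := a.isLt
          have := b1.isLt
          rw [Fin.lt_def] at hab1
          omega
        have hk2 : n - c1.val ≤ k := by
          have := a.isLt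
          have := c1.isLt
          rw [Fin.lt_def] at hac1
          omega
        rcases lt_trichotomy b1 c1 with h3 | h3 | h3
        · have h4 := fstep_confl hex h1 h2 h3
          exact ih b1 b c hk1 h1' (Relation.ReflTransGen.head h4 h2') hbc
        · subst h3
          exact ih b1 b c hk1 h1' h2' hbc
        · have h4 := fstep_confl hex h2 h1 h3
          exact ih c1 b c hk2 (Relation.ReflTransGen.head h4 h1') h2' hbc

lemma fstar_closed
    (hex : ∀ p ∈ T, ∀ q ∈ T, p < q → ∀ c c', c < c' → c ∈ S p → c' ∈ S p → c ∈ S q → c' ∈ S q)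
    (hmono : ∀ p q, w p < w q → p < q)
    {q : Fin n} (hq : q ∈ T) {c c' : Fin n} (hc : c ∈ S q) (h : fstar T S w (w q) c c') :
    c' ∈ S q := by
  induction h with
  | refl => exact hc
  | tail _ h2 ih =>
    obtain ⟨h3, p, hp, hpW, h4, h5⟩ := h2
    exact hex p hp q hq (hmono _ _ hpW) _ _ h3 h4 h5 ih

end

/-- Chain lemma. -/
lemma chain_loss (r : Fin n → Fin n → Prop) [DecidableRel r] (hrefl : ∀ a, r a a)
    (hle : ∀ a b, r a b → a ≤ b) (l : ℕ) (S : Finset (Fin n)) :
    (∀ a ∈ S, ∀ b, r a b → b ∈ S) → (∀ a ∈ S, (univ.filter (r a)).card ≤ l) →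
    (S.card - l) ^ 2 ≤ 2 * ((S ×ˢ S).filter fun p => p.1 < p.2 ∧ ¬ r p.1 p.2).card := by
  induction S using Finset.induction_on_min with
  | empty => simp
  | insert s S₀ hs ih =>
    intro hcl hbd
    have hsS₀ : s ∉ S₀ := fun h => lt_irrefl _ (hs s h)
    have hcl0 : ∀ a ∈ S₀, ∀ b, r a b → b ∈ S₀ := by
      intro a ha b hab
      have h1 := hcl a (mem_insert_of_mem ha) b hab
      rcases mem_insert.1 h1 with h2 | h2
      · exfalso
        have h3 := hs a ha
        have h4 := hle a b hab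
        rw [h2] at h4
        exact absurd h3 (not_lt.2 h4)
      · exact h2
    have hbd0 : ∀ a ∈ S₀, (univ.filter (r a)).card ≤ l := fun a ha => hbd a (mem_insert_of_mem ha)
    have IH := ih hcl0 hbd0
    set J := S₀.filter (fun b => ¬ r s b) with hJ
    have hJ2 : S₀.card + 1 ≤ l + J.card := by
      have h1 : (S₀.filter fun b => r s b).card + J.card = S₀.card :=
        card_filter_add_card_filter_not _
      have h2 : (S₀.filter fun b => r s b).card + 1 ≤ l := by
        have h3 : insert s (S₀.filter fun b => r s b) ⊆ univ.filter (r s) := by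
          intro x hx
          rcases mem_insert.1 hx with h4 | h4
          · rw [h4]; exact mem_filter.2 ⟨mem_univ _, hrefl s⟩
          · exact mem_filter.2 ⟨mem_univ _, (mem_filter.1 h4).2⟩
        have h4 := card_le_card h3
        rw [card_insert_of_notMem (fun h => hsS₀ (mem_filter.1 h).1)] at h4
        exact le_trans h4 (hbd s (mem_insert_self _ _))
      omega
    set I₀ := (S₀ ×ˢ S₀).filter (fun p => p.1 < p.2 ∧ ¬ r p.1 p.2) with hI₀
    have hI : I₀.card + J.card ≤
        ((insert s S₀ ×ˢ insert s S₀).filter fun p => p.1 < p.2 ∧ ¬ r p.1 p.2).card := by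
      have hinj : (J.image fun b => (s, b)).card = J.card :=
        card_image_of_injective _ (fun a b h => by simpa using h)
      have hdisj : Disjoint I₀ (J.image fun b => (s, b)) := by
        rw [disjoint_left]
        intro p hp hp'
        obtain ⟨b, _, hb⟩ := mem_image.1 hp'
        have h1 := (mem_product.1 (mem_filter.1 hp).1).1
        rw [← hb] at h1
        exact hsS₀ h1
      rw [← hinj, ← card_union_of_disjoint hdisj]
      refine card_le_card ?_
      intro p hp
      rcases mem_union.1 hp with h1 | h1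
      · obtain ⟨h2, h3⟩ := mem_filter.1 h1
        obtain ⟨h4, h5⟩ := mem_product.1 h2
        exact mem_filter.2 ⟨mem_product.2 ⟨mem_insert_of_mem h4, mem_insert_of_mem h5⟩, h3⟩
      · obtain ⟨b, hb, hb2⟩ := mem_image.1 h1
        rw [← hb2]
        have hb3 := mem_filter.1 hb
        refine mem_filter.2 ⟨mem_product.2 ⟨mem_insert_self _ _, mem_insert_of_mem hb3.1⟩, ?_⟩
        exact ⟨hs b hb3.1, hb3.2⟩
    rw [card_insert_of_notMem hsS₀]
    set x := S₀.card + 1 - l with hx
    have hx1 : x ≤ J.card := by omega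
    have hx2 : (x - 1) ^ 2 ≤ (S₀.card - l) ^ 2 := by
      apply Nat.pow_le_pow_left
      omega
    rcases Nat.eq_zero_or_pos x with h0 | hpos
    · rw [h0]; simp
    · obtain ⟨y, hy⟩ : ∃ y, x = y + 1 := ⟨x - 1, by omega⟩
      rw [hy] at hx1 hx2 ⊢
      simp only [Nat.add_sub_cancel] at hx2
      nlinarith

/-- Forest final theorem. -/
theorem forest_final (T : Finset (Fin n)) (S : Fin n → Finset (Fin n)) (w : Fin n → ℕ)
    (hmono : ∀ p q, w p < w q → p < q)
    (hex : ∀ p ∈ T, ∀ q ∈ T, p < q → ∀ c c', c < c' → c ∈ S p → c' ∈ S p → c ∈ S q → c' ∈ S q)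
    (L : ℕ) :
    ∃ (X : Fin n → Finset (Fin n)) (b : ℕ → ℕ),
      (∀ q ∈ T, X q ⊆ S q) ∧
      (∀ p ∈ T, ∀ q ∈ T, w p ≤ w q → ∀ c c', c < c' → c ∈ X p → c' ∈ X p → c ∈ X q → c' ∈ X q) ∧
      (∀ q ∈ T, (S q \ X q).card ≤ b (w q)) ∧
      (∑ W ∈ range L, b W) ^ 2 ≤ L * (2 * n ^ 2) := by
  classical
  set φ : ℕ → ℕ := fun W => (univ.filter fun e : Fin n × Fin n =>
    e.1 < e.2 ∧ fstar T S w W e.1 e.2).card with hφ
  have hφmono : ∀ W W', W ≤ W' → φ W ≤ φ W' := by
    intro W W' hW
    refine card_le_card fun e he => ?_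
    obtain ⟨h1, h2, h3⟩ := mem_filter.1 he
    exact mem_filter.2 ⟨h1, h2, fstar_mono hW h3⟩
  have hφbd : ∀ W, φ W ≤ n ^ 2 := by
    intro W
    calc φ W ≤ (univ : Finset (Fin n × Fin n)).card := card_le_card (filter_subset _ _)
      _ = n ^ 2 := by simp [sq]
  -- choice of the top point
  have hchoice : ∀ q ∈ T, ∃ X : Finset (Fin n), X ⊆ S q ∧
      (∀ c c', fstar T S w (w q) c c' → c ∈ X → c' ∈ X) ∧
      (∀ c ∈ X, ∀ c' ∈ X, c ≤ c' → fstar T S w (w q) c c') ∧
      (S q \ X).card ^ 2 ≤ 2 * (φ (w q + 1) - φ (w q)) := by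
    intro q hq
    rcases (S q).eq_empty_or_nonempty with h0 | hne
    · refine ⟨∅, by simp, by simp, by simp, ?_⟩
      rw [h0]; simp
    · obtain ⟨u, hu, hmax⟩ := exists_max_image (S q)
        (fun a => (univ.filter (fstar T S w (w q) a)).card) hne
      refine ⟨univ.filter (fstar T S w (w q) u), ?_, ?_, ?_, ?_⟩
      · intro x hx
        exact fstar_closed hex hmono hq hu (mem_filter.1 hx).2
      · intro c c' h1 h2
        exact mem_filter.2 ⟨mem_univ _, Relation.ReflTransGen.trans (mem_filter.1 h2).2 h1⟩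
      · intro c hc c' hc' hcc'
        exact fstar_chain hex (n - u.val) u c c' le_rfl (mem_filter.1 hc).2 (mem_filter.1 hc').2 hcc'
      · have hXS : univ.filter (fstar T S w (w q) u) ⊆ S q := fun x hx =>
          fstar_closed hex hmono hq hu (mem_filter.1 hx).2
        have h1 := chain_loss (fstar T S w (w q)) (fstar_refl _) (fun a b => fstar_le)
          ((univ.filter (fstar T S w (w q) u)).card) (S q)
          (fun a ha b hab => fstar_closed hex hmono hq ha hab) hmax
        rw [card_sdiff_of_subset hXS]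
        refine le_trans h1 (Nat.mul_le_mul_left _ ?_)
        set A := (univ.filter fun e : Fin n × Fin n => e.1 < e.2 ∧ fstar T S w (w q) e.1 e.2) with hA
        set B := (univ.filter fun e : Fin n × Fin n => e.1 < e.2 ∧ fstar T S w (w q + 1) e.1 e.2) with hB
        have hAB : A ⊆ B := by
          intro e he
          obtain ⟨h2, h3, h4⟩ := mem_filter.1 he
          exact mem_filter.2 ⟨h2, h3, fstar_mono (Nat.le_succ _) h4⟩
        have hsub : ((S q ×ˢ S q).filter fun p => p.1 < p.2 ∧ ¬ fstar T S w (w q) p.1 p.2) ⊆ B \ A := by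
          intro p hp
          obtain ⟨h2, h3, h4⟩ := mem_filter.1 hp
          obtain ⟨h5, h6⟩ := mem_product.1 h2
          refine mem_sdiff.2 ⟨mem_filter.2 ⟨mem_univ _, h3, ?_⟩, fun h7 => h4 (mem_filter.1 h7).2.2⟩
          exact Relation.ReflTransGen.single ⟨h3, q, hq, Nat.lt_succ_self _, h5, h6⟩
        have h8 := card_le_card hsub
        rw [card_sdiff_of_subset hAB] at h8
        exact h8
  -- extract
  choose! X hX1 hX2 hX3 hX4 using hchoice
  set b : ℕ → ℕ := fun W => Nat.sqrt (2 * (φ (W + 1) - φ W)) with hb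
  refine ⟨X, b, hX1, ?_, ?_, ?_⟩
  · intro p hp q hq hpq c c' hcc' h1 h2 h3
    have h4 := hX3 p hp c h1 c' h2 (le_of_lt hcc')
    exact hX2 q hq c c' (fstar_mono hpq h4) h3
  · intro q hq
    exact Nat.le_sqrt'.2 (hX4 q hq)
  · have h1 := sq_sum_le_card_mul_sum_sq (s := range L) (f := b)
    rw [card_range] at h1
    refine le_trans h1 (Nat.mul_le_mul_left _ ?_)
    have h2 : ∀ W ∈ range L, b W ^ 2 ≤ 2 * (φ (W + 1) - φ W) := fun W _ => Nat.sqrt_le' _
    have h3 : ∑ W ∈ range L, (φ (W + 1) - φ W) ≤ n ^ 2 := by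
      have h4 : ∀ L', ∑ W ∈ range L', (φ (W + 1) - φ W) = φ L' - φ 0 := by
        intro L'
        induction L' with
        | zero => simp
        | succ L' ih =>
          rw [sum_range_succ, ih]
          have h5 := hφmono 0 L' (Nat.zero_le _)
          have h6 := hφmono L' (L' + 1) (Nat.le_succ _)
          omega
      rw [h4]
      exact le_trans (Nat.sub_le _ _) (hφbd L)
    calc ∑ W ∈ range L, b W ^ 2 ≤ ∑ W ∈ range L, 2 * (φ (W + 1) - φ W) := sum_le_sum h2
      _ = 2 * ∑ W ∈ range L, (φ (W + 1) - φ W) := by rw [mul_sum]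
      _ ≤ 2 * n ^ 2 := Nat.mul_le_mul_left _ h3

end Vale.Agent.Lib.P037
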