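import Mathlib

namespace Vale.Agent.Lib.P037

open Finset

lemma heavy {α : Type*} (S : Finset α) (g : α → ℕ) (K b e X Y : ℕ) (hY : 0 < Y)
    (hF : K ^ (b + e) * ∑ z ∈ S, g z ≤ X * Y) :
    K ^ e * (S.filter fun z => Y < K ^ b * g z).card ≤ X := by
  set c := (S.filter fun z => Y < K ^ b * g z).card with hc
  have h1 : c * Y ≤ K ^ b * ∑ z ∈ S, g z := by
    calc c * Y = ∑ _z ∈ S.filter (fun z => Y < K ^ b * g z), Y := by
          rw [sum_const, smul_eq_mul]
      _ ≤ ∑ z ∈ S.filter (fun z => Y < K ^ b * g z), K ^ b * g z :=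
          sum_le_sum fun z hz => le_of_lt (mem_filter.1 hz).2
      _ ≤ ∑ z ∈ S, K ^ b * g z :=
          sum_le_sum_of_subset (filter_subset _ _)
      _ = K ^ b * ∑ z ∈ S, g z := by rw [mul_sum]
  have h2 : K ^ e * c * Y ≤ X * Y := by
    calc K ^ e * c * Y = K ^ e * (c * Y) := by ring
      _ ≤ K ^ e * (K ^ b * ∑ z ∈ S, g z) := Nat.mul_le_mul_left _ h1
      _ = K ^ (b + e) * ∑ z ∈ S, g z := by rw [pow_add]; ring
      _ ≤ X * Y := hF
  exact Nat.le_of_mul_le_mul_right h2 hY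

lemma sum_bound {α : Type*} (T : Finset α) (c : α → ℕ) (P X : ℕ) (hT : T.card ≤ P) (hP : 0 < P)
    (hc : ∀ t ∈ T, P * c t ≤ X) : ∑ t ∈ T, c t ≤ X := by
  have h1 : ∀ t ∈ T, c t ≤ X / P := fun t ht =>
    (Nat.le_div_iff_mul_le hP).2 (by rw [mul_comm]; exact hc t ht)
  calc ∑ t ∈ T, c t ≤ ∑ _t ∈ T, X / P := sum_le_sum h1
    _ = T.card * (X / P) := by rw [sum_const, smul_eq_mul]
    _ ≤ P * (X / P) := Nat.mul_le_mul_right _ hT
    _ ≤ X := Nat.mul_div_le _ _

variable {n : ℕ}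

/-- Good sets of representative rows. -/
def GoodSet (hc : Fin n → Fin n → ℕ) (far : Fin n → Fin n → Prop) (w : Fin n → ℕ) (K a b : ℕ)
    (Typ : Fin n → Prop) (T : Finset (Fin n)) : Prop :=
  (∀ t ∈ T, Typ t) ∧ (∀ p ∈ T, ∀ q ∈ T, p < q → K ^ b * hc p q ≤ n ^ 2) ∧
    (∀ p ∈ T, ∀ q ∈ T, p ≠ q → w p = w q → K ^ a * hc p q ≤ n ^ 2 ∧ far p q)

lemma exists_max_good (hc : Fin n → Fin n → ℕ) (far : Fin n → Fin n → Prop) (w : Fin n → ℕ)
    (K a b : ℕ) (Typ : Fin n → Prop) :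
    ∃ T, GoodSet hc far w K a b Typ T ∧ ∀ z, z ∉ T → ¬ GoodSet hc far w K a b Typ (insert z T) := by
  classical
  have hne : (univ.filter (GoodSet hc far w K a b Typ)).Nonempty :=
    ⟨∅, by simp [GoodSet]⟩
  obtain ⟨T, hT, hmax⟩ := exists_max_image _ (fun T : Finset (Fin n) => T.card) hne
  refine ⟨T, (mem_filter.1 hT).2, fun z hz hg => ?_⟩
  have := hmax (insert z T) (mem_filter.2 ⟨mem_univ _, hg⟩)
  rw [card_insert_of_notMem hz] at this
  omega

lemma not_good_insert (hc : Fin n → Fin n → ℕ) (far : Fin n → Fin n → Prop) (w : Fin n → ℕ)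
    (K a b : ℕ) (Typ : Fin n → Prop) (T : Finset (Fin n))
    (hT : GoodSet hc far w K a b Typ T) (z : Fin n) (hzT : z ∉ T) (hz : Typ z)
    (hng : ¬ GoodSet hc far w K a b Typ (insert z T)) :
    ∃ t ∈ T, (t < z ∧ n ^ 2 < K ^ b * hc t z) ∨ (z < t ∧ n ^ 2 < K ^ b * hc z t) ∨
      (w z = w t ∧ (n ^ 2 < K ^ a * hc t z ∨ n ^ 2 < K ^ a * hc z t ∨ ¬ far t z ∨ ¬ far z t)) := by
  by_contra hcon
  push Not at hcon
  apply hng
  obtain ⟨h1, h2, h3⟩ := hT
  refine ⟨?_, ?_, ?_⟩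
  · intro t ht
    rcases mem_insert.1 ht with h0 | ht'
    · rw [h0]; exact hz
    · exact h1 t ht'
  · intro p hp q hq hpq
    rcases mem_insert.1 hp with hp' | hp' <;> rcases mem_insert.1 hq with hq' | hq'
    · rw [hp', hq'] at hpq; exact absurd hpq (lt_irrefl _)
    · rw [hp'] at hpq ⊢; exact (hcon q hq').2.1 hpq
    · rw [hq'] at hpq ⊢; exact (hcon p hp').1 hpq
    · exact h2 p hp' q hq' hpq
  · intro p hp q hq hpq hw
    rcases mem_insert.1 hp with hp' | hp' <;> rcases mem_insert.1 hq with hq' | hq'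
    · rw [hp', hq'] at hpq; exact absurd rfl hpq
    · rw [hp'] at hw ⊢
      obtain ⟨_, _, h4⟩ := hcon q hq'
      have := h4 hw
      exact ⟨this.2.1, this.2.2.2⟩
    · rw [hq'] at hw ⊢
      obtain ⟨_, _, h4⟩ := hcon p hp'
      have := h4 hw.symm
      exact ⟨this.1, this.2.2.1⟩
    · exact h3 p hp' q hq' hpq hw

/-- The selection theorem. -/
theorem select (hc : Fin n → Fin n → ℕ) (far : Fin n → Fin n → Prop) (hfar : ∀ z, ¬ far z z)
    (hfarsym : ∀ p q, far p q → far q p)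
    (w : Fin n → ℕ) (l L : ℕ) (hw : ∀ r, w r < L)
    (K a g s mu b e f h : ℕ) (hK : 0 < K) (hn : 0 < n) (hl : 0 < l)
    (hh : h = a + (g + 1)) (hs : s = h + 1) (hmu : mu = s + g) (he : e = mu + 1) (hf : f = b + e)
    (hLs : L = K ^ s)
    (N : ℕ) (hNdef : N = ∑ r, ∑ z ∈ univ.filter (fun z => r < z), hc r z)
    (hS : ∑ r, ∑ z ∈ univ.filter (fun z => w z = w r), hc r z ≤ 2 * l ^ 2 * n ^ 2 + N)
    (hN1 : K ^ (f + 1) * N ≤ n ^ 4) (hN2 : K ^ (h + 1 + s) * N ≤ n ^ 4)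
    (hl1 : n ≤ K ^ s * l) (hl2 : K ^ s * l ≤ 2 * n)
    (hfam : ∀ T' : Finset (Fin n), (∀ p ∈ T', ∀ q ∈ T', p ≠ q → K ^ a * hc p q ≤ n ^ 2 ∧ far p q) →
      T'.card ≤ K ^ g) :
    ∃ T : Finset (Fin n), (∀ p ∈ T, ∀ q ∈ T, p < q → K ^ b * hc p q ≤ n ^ 2) ∧
      (∀ p ∈ T, ∀ q ∈ T, p ≠ q → w p = w q → K ^ a * hc p q ≤ n ^ 2 ∧ far p q) ∧
      T.card ≤ K ^ mu ∧
      ∀ U : Finset (Fin n), (∀ z ∈ U, ¬ ∃ t ∈ T, w t = w z ∧ ¬ far z t) → K * U.card ≤ 16 * n := by
  classical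
  -- the three averages
  set F : Fin n → ℕ := fun t => ∑ z ∈ univ.filter (fun z => t < z), hc t z with hF
  set B : Fin n → ℕ := fun t => ∑ z ∈ univ.filter (fun z => z < t), hc z t with hB
  set Ps : Fin n → ℕ := fun t => ∑ z ∈ univ.filter (fun z => w z = w t), (hc t z + hc z t) with hPs
  set Typ : Fin n → Prop := fun t =>
    K ^ f * F t ≤ n ^ 3 ∧ K ^ f * B t ≤ n ^ 3 ∧ K ^ h * Ps t ≤ l * n ^ 2 with hTyp
  have hFsum : ∑ t, F t = N := by rw [hNdef]
  have hBsum : ∑ t, B t = N := by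
    rw [hNdef]
    simp only [hB, hF, sum_filter]
    rw [sum_comm]
  set S := ∑ r, ∑ z ∈ univ.filter (fun z => w z = w r), hc r z with hSdef
  have hPsum : ∑ t, Ps t = 2 * S := by
    have h1 : ∑ t, ∑ z ∈ univ.filter (fun z => w z = w t), hc z t = S := by
      rw [hSdef]
      simp only [sum_filter]
      rw [sum_comm]
      refine sum_congr rfl fun r _ => sum_congr rfl fun z _ => ?_
      by_cases hz : w z = w r
      · simp [hz]
      · have hz' : ¬ w r = w z := fun h => hz h.symm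
        simp [hz, hz']
    rw [hPs]
    simp only [sum_add_distrib]
    rw [h1, ← hSdef]
    ring
  obtain ⟨T, hT, hmax⟩ := exists_max_good hc far w K a b Typ
  have hT0 := hT
  obtain ⟨hT1, hT2, hT3⟩ := hT0
  -- size of T
  have hKpos : ∀ x, 0 < K ^ x := fun x => pow_pos hK x
  have hcard : T.card ≤ K ^ mu := by
    have h1 : T.card = ∑ W ∈ range L, (T.filter fun t => w t = W).card :=
      card_eq_sum_card_fiberwise (fun x _ => Finset.mem_coe.2 (mem_range.2 (hw x)))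
    have h2 : ∀ W ∈ range L, (T.filter fun t => w t = W).card ≤ K ^ g := by
      intro W _
      apply hfam
      intro p hp q hq hpq
      have hp' := mem_filter.1 hp
      have hq' := mem_filter.1 hq
      exact hT3 p hp'.1 q hq'.1 hpq (by rw [hp'.2, hq'.2])
    calc T.card ≤ ∑ _W ∈ range L, K ^ g := by rw [h1]; exact sum_le_sum h2
      _ = K ^ mu := by
        rw [sum_const, smul_eq_mul, card_range, hLs, hmu, pow_add]
  refine ⟨T, hT2, hT3, hcard, ?_⟩
  intro U hU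
  -- heavy sets
  set H1 : Fin n → Finset (Fin n) := fun t =>
    (univ.filter (fun z => t < z)).filter fun z => n ^ 2 < K ^ b * hc t z with hH1
  set H2 : Fin n → Finset (Fin n) := fun t =>
    (univ.filter (fun z => z < t)).filter fun z => n ^ 2 < K ^ b * hc z t with hH2
  set H3 : Fin n → Finset (Fin n) := fun t =>
    (univ.filter (fun z => w z = w t)).filter fun z => n ^ 2 < K ^ a * (hc t z + hc z t) with hH3
  set A1 := univ.filter (fun t => n ^ 3 < K ^ f * F t) with hA1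
  set A2 := univ.filter (fun t => n ^ 3 < K ^ f * B t) with hA2
  set A3 := univ.filter (fun t => l * n ^ 2 < K ^ h * Ps t) with hA3
  have hn2 : 0 < n ^ 2 := pow_pos hn 2
  have hn3 : 0 < n ^ 3 := pow_pos hn 3
  have hsub : U ⊆ A1 ∪ A2 ∪ A3 ∪ T.biUnion H1 ∪ T.biUnion H2 ∪ T.biUnion H3 := by
    intro z hz
    have hz' := hU z hz
    by_cases hzt : Typ z
    · by_cases hzT : z ∈ T
      · exfalso
        exact hz' ⟨z, hzT, rfl, hfar z⟩
      · obtain ⟨t, ht, h1⟩ := not_good_insert hc far w K a b Typ T hT z hzT hzt (hmax z hzT)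
        rcases h1 with ⟨h2, h3⟩ | ⟨h2, h3⟩ | ⟨h2, h3⟩
        · simp only [mem_union, mem_biUnion]
          left; left; right
          exact ⟨t, ht, mem_filter.2 ⟨mem_filter.2 ⟨mem_univ _, h2⟩, h3⟩⟩
        · simp only [mem_union, mem_biUnion]
          left; right
          exact ⟨t, ht, mem_filter.2 ⟨mem_filter.2 ⟨mem_univ _, h2⟩, h3⟩⟩
        · rcases h3 with h3 | h3 | h3 | h3
          · simp only [mem_union, mem_biUnion]
            right
            refine ⟨t, ht, mem_filter.2 ⟨mem_filter.2 ⟨mem_univ _, h2⟩, ?_⟩⟩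
            calc n ^ 2 < K ^ a * hc t z := h3
              _ ≤ _ := Nat.mul_le_mul_left _ (Nat.le_add_right _ _)
          · simp only [mem_union, mem_biUnion]
            right
            refine ⟨t, ht, mem_filter.2 ⟨mem_filter.2 ⟨mem_univ _, h2⟩, ?_⟩⟩
            calc n ^ 2 < K ^ a * hc z t := h3
              _ ≤ _ := Nat.mul_le_mul_left _ (Nat.le_add_left _ _)
          · exfalso
            exact hz' ⟨t, ht, h2.symm, fun h4 => h3 (hfarsym _ _ h4)⟩
          · exfalso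
            exact hz' ⟨t, ht, h2.symm, h3⟩
    · simp only [mem_union]
      left; left; left
      simp only [hTyp, not_and_or, not_le] at hzt
      rcases hzt with h1 | h1 | h1
      · left; left; exact mem_filter.2 ⟨mem_univ _, h1⟩
      · left; right; exact mem_filter.2 ⟨mem_univ _, h1⟩
      · right; exact mem_filter.2 ⟨mem_univ _, h1⟩
  have hs2 : h + 1 = s := hs.symm
  have c1 : K ^ 1 * A1.card ≤ n := by
    apply heavy univ F K f 1 n (n ^ 3) hn3
    rw [hFsum]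
    calc K ^ (f + 1) * N ≤ n ^ 4 := hN1
      _ = n * n ^ 3 := by ring
  have c2 : K ^ 1 * A2.card ≤ n := by
    apply heavy univ B K f 1 n (n ^ 3) hn3
    rw [hBsum]
    calc K ^ (f + 1) * N ≤ n ^ 4 := hN1
      _ = n * n ^ 3 := by ring
  have hln : 0 < l * n ^ 2 := Nat.mul_pos hl hn2
  have c3 : K ^ 1 * A3.card ≤ 10 * n := by
    apply heavy univ Ps K h 1 (10 * n) (l * n ^ 2) hln
    rw [hPsum, hs2]
    have h5 : K ^ s * N ≤ n * (l * n ^ 2) := by
      have h6 : K ^ s * (K ^ s * N) ≤ K ^ s * (n * (l * n ^ 2)) := by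
        calc K ^ s * (K ^ s * N) = K ^ (h + 1 + s) * N := by rw [hs2, pow_add]; ring
          _ ≤ n ^ 4 := hN2
          _ = n * n * n ^ 2 := by ring
          _ ≤ n * (K ^ s * l) * n ^ 2 := by
              apply Nat.mul_le_mul_right
              exact Nat.mul_le_mul_left _ hl1
          _ = K ^ s * (n * (l * n ^ 2)) := by ring
      exact Nat.le_of_mul_le_mul_left h6 (hKpos s)
    have h7 : K ^ s * l * (l * n ^ 2) ≤ 2 * n * (l * n ^ 2) := Nat.mul_le_mul_right _ hl2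
    calc K ^ s * (2 * S) ≤ K ^ s * (2 * (2 * l ^ 2 * n ^ 2 + N)) :=
          Nat.mul_le_mul_left _ (Nat.mul_le_mul_left _ hS)
      _ = 4 * (K ^ s * l * (l * n ^ 2)) + 2 * (K ^ s * N) := by ring
      _ ≤ 4 * (2 * n * (l * n ^ 2)) + 2 * (n * (l * n ^ 2)) := by omega
      _ = 10 * n * (l * n ^ 2) := by ring
  rw [pow_one] at c1 c2 c3
  have hmupos := hKpos mu
  have c4 : ∑ t ∈ T, K * (H1 t).card ≤ n := by
    apply sum_bound T _ (K ^ mu) n hcard hmupos
    intro t ht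
    have h1 : K ^ (mu + 1) * (H1 t).card ≤ n := by
      apply heavy _ (hc t) K b (mu + 1) n (n ^ 2) hn2
      have h2 := (hT1 t ht).1
      rw [hf, he] at h2
      calc _ ≤ n ^ 3 := h2
        _ = n * n ^ 2 := by ring
    calc K ^ mu * (K * (H1 t).card) = K ^ (mu + 1) * (H1 t).card := by rw [pow_succ]; ring
      _ ≤ n := h1
  have c5 : ∑ t ∈ T, K * (H2 t).card ≤ n := by
    apply sum_bound T _ (K ^ mu) n hcard hmupos
    intro t ht
    have h1 : K ^ (mu + 1) * (H2 t).card ≤ n := by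
      apply heavy _ (fun z => hc z t) K b (mu + 1) n (n ^ 2) hn2
      have h2 := (hT1 t ht).2.1
      rw [hf, he] at h2
      calc _ ≤ n ^ 3 := h2
        _ = n * n ^ 2 := by ring
    calc K ^ mu * (K * (H2 t).card) = K ^ (mu + 1) * (H2 t).card := by rw [pow_succ]; ring
      _ ≤ n := h1
  have c6 : ∑ t ∈ T, K * (H3 t).card ≤ 2 * n := by
    apply sum_bound T _ (K ^ mu) (2 * n) hcard hmupos
    intro t ht
    have h1 : K ^ (g + 1) * (H3 t).card ≤ l := by
      apply heavy _ (fun z => hc t z + hc z t) K a (g + 1) l (n ^ 2) hn2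
      have h2 := (hT1 t ht).2.2
      rw [hh] at h2
      exact h2
    calc K ^ mu * (K * (H3 t).card) = K ^ s * (K ^ (g + 1) * (H3 t).card) := by
          rw [hmu, pow_add, pow_succ]; ring
      _ ≤ K ^ s * l := Nat.mul_le_mul_left _ h1
      _ ≤ 2 * n := hl2
  have hcardU : U.card ≤ A1.card + A2.card + A3.card + ∑ t ∈ T, (H1 t).card
      + ∑ t ∈ T, (H2 t).card + ∑ t ∈ T, (H3 t).card := by
    refine le_trans (card_le_card hsub) ?_
    refine le_trans (card_union_le _ _) ?_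
    refine Nat.add_le_add ?_ card_biUnion_le
    refine le_trans (card_union_le _ _) ?_
    refine Nat.add_le_add ?_ card_biUnion_le
    refine le_trans (card_union_le _ _) ?_
    refine Nat.add_le_add ?_ card_biUnion_le
    refine le_trans (card_union_le _ _) ?_
    refine Nat.add_le_add ?_ le_rfl
    exact card_union_le _ _
  rw [← mul_sum] at c4 c5 c6
  calc K * U.card ≤ K * (A1.card + A2.card + A3.card + ∑ t ∈ T, (H1 t).card
      + ∑ t ∈ T, (H2 t).card + ∑ t ∈ T, (H3 t).card) := Nat.mul_le_mul_left _ hcardU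
    _ = K * A1.card + K * A2.card + K * A3.card + K * ∑ t ∈ T, (H1 t).card
      + K * ∑ t ∈ T, (H2 t).card + K * ∑ t ∈ T, (H3 t).card := by ring
    _ ≤ 16 * n := by omega

end Vale.Agent.Lib.P037
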