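import Mathlib

namespace Vale.Agent.Lib.P037

open Finset

lemma seq_min_bound (m : ℕ → ℕ) (l : ℕ) (hm : ∀ i, m i ≤ l) (L : ℕ) :
    l * ∑ i ∈ range L, m i ≤ 2 * l ^ 2 + ∑ i ∈ range L, (∑ j ∈ range i, m j) * m i := by
  induction L with
  | zero => simp
  | succ L ih =>
    rw [sum_range_succ, sum_range_succ]
    by_cases h : l ≤ ∑ j ∈ range L, m j
    · have h3 : l * m L ≤ (∑ j ∈ range L, m j) * m L := Nat.mul_le_mul_right _ h
      nlinarith
    · push Not at h
      have h2 := hm L
      have h3 : l * (∑ i ∈ range L, m i + m L) ≤ l * (l + l) :=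
        Nat.mul_le_mul_left _ (by omega)
      have h4 : l * (l + l) = 2 * l ^ 2 := by ring
      have h5 := Nat.zero_le (∑ x ∈ range L, (∑ j ∈ range x, m j) * m x + (∑ j ∈ range L, m j) * m L)
      omega

lemma seq_bound (a b : ℕ → ℕ) (l : ℕ) (ha : ∀ i, a i ≤ l) (hb : ∀ i, b i ≤ l) (L : ℕ) :
    ∑ i ∈ range L, a i * b i ≤ 2 * l ^ 2 + ∑ i ∈ range L, (∑ j ∈ range i, a j) * b i := by
  have h1 := seq_min_bound (fun i => min (a i) (b i)) l (fun i => le_trans (min_le_left _ _) (ha i)) L
  have h2 : ∑ i ∈ range L, a i * b i ≤ l * ∑ i ∈ range L, min (a i) (b i) := by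
    rw [mul_sum]
    refine sum_le_sum fun i _ => ?_
    rcases le_total (a i) (b i) with h | h
    · rw [min_eq_left h, mul_comm]; exact Nat.mul_le_mul_right _ (hb i)
    · rw [min_eq_right h]; exact Nat.mul_le_mul_right _ (ha i)
  have h3 : ∑ i ∈ range L, (∑ j ∈ range i, min (a j) (b j)) * min (a i) (b i)
      ≤ ∑ i ∈ range L, (∑ j ∈ range i, a j) * b i := by
    refine sum_le_sum fun i _ => ?_
    exact Nat.mul_le_mul (sum_le_sum fun j _ => min_le_left _ _) (min_le_right _ _)
  omega

variable {n : ℕ}

lemma window_pairs (w : Fin n → ℕ) (l L : ℕ) (hw : ∀ r, w r < L)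
    (hmono : ∀ r r', w r < w r' → r < r')
    (hfib : ∀ W, (univ.filter fun r => w r = W).card ≤ l)
    (Us Vs : Finset (Fin n)) :
    ∑ r ∈ Us, (Vs.filter fun r' => w r' = w r).card
      ≤ 2 * l ^ 2 + ∑ r' ∈ Vs, (Us.filter fun r => r < r').card := by
  set a : ℕ → ℕ := fun W => (Us.filter fun r => w r = W).card with ha
  set b : ℕ → ℕ := fun W => (Vs.filter fun r => w r = W).card with hb
  have hal : ∀ i, a i ≤ l := fun i =>
    le_trans (card_le_card (filter_subset_filter _ (subset_univ _))) (hfib i)
  have hbl : ∀ i, b i ≤ l := fun i =>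
    le_trans (card_le_card (filter_subset_filter _ (subset_univ _))) (hfib i)
  have h1 : ∑ r ∈ Us, (Vs.filter fun r' => w r' = w r).card = ∑ W ∈ range L, a W * b W := by
    rw [← sum_fiberwise_of_maps_to (s := Us) (t := range L) (g := w)
      (fun x _ => mem_range.2 (hw x))]
    refine sum_congr rfl fun W _ => ?_
    rw [ha]
    simp only
    rw [card_eq_sum_ones, sum_mul, one_mul]
    refine sum_congr rfl fun r hr => ?_
    rw [(mem_filter.1 hr).2]
  have h2 : ∑ W ∈ range L, (∑ j ∈ range W, a j) * b W
      ≤ ∑ r' ∈ Vs, (Us.filter fun r => r < r').card := by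
    rw [← sum_fiberwise_of_maps_to (s := Vs) (t := range L) (g := w)
      (f := fun r' => (Us.filter fun r => r < r').card)
      (fun x _ => mem_range.2 (hw x))]
    refine sum_le_sum fun W _ => ?_
    have h3 : ∀ r' ∈ Vs.filter (fun r => w r = W),
        (∑ j ∈ range W, a j) ≤ (Us.filter fun r => r < r').card := by
      intro r' hr'
      have hr'W := (mem_filter.1 hr').2
      have h4 : ∑ j ∈ range W, a j = (Us.filter fun r => w r < W).card := by
        rw [card_eq_sum_card_fiberwise (f := w) (t := range W)]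
        · refine sum_congr rfl fun j hj => ?_
          rw [ha]
          simp only
          congr 1
          ext x
          simp only [mem_filter]
          constructor
          · rintro ⟨h5, h6⟩
            exact ⟨⟨h5, h6 ▸ mem_range.1 hj⟩, h6⟩
          · rintro ⟨⟨h5, _⟩, h6⟩
            exact ⟨h5, h6⟩
        · intro x hx
          have := (mem_filter.1 (Finset.mem_coe.1 hx)).2
          exact Finset.mem_coe.2 (mem_range.2 this)
      rw [h4]
      refine card_le_card fun x hx => ?_
      rw [mem_filter] at hx ⊢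
      exact ⟨hx.1, hmono _ _ (hr'W ▸ hx.2)⟩
    calc (∑ j ∈ range W, a j) * b W
        = ∑ _r' ∈ Vs.filter (fun r => w r = W), ∑ j ∈ range W, a j := by
          rw [sum_const, smul_eq_mul, mul_comm]
      _ ≤ _ := sum_le_sum h3
  have h3 := seq_bound a b l hal hbl L
  rw [h1]
  omega

/-- Lemma A: in consecutive windows, both-order counts are controlled by true-order counts. -/
lemma lemma_A {ι : Type*} (E : Finset ι) (u v : Fin n → ι → Prop)
    [∀ r e, Decidable (u r e)] [∀ r e, Decidable (v r e)]
    (w : Fin n → ℕ) (l L : ℕ) (hw : ∀ r, w r < L)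
    (hmono : ∀ r r', w r < w r' → r < r')
    (hfib : ∀ W, (univ.filter fun r => w r = W).card ≤ l) :
    ∑ r, ∑ r' ∈ univ.filter (fun r' => w r' = w r), (E.filter fun e => u r e ∧ v r' e).card
      ≤ E.card * (2 * l ^ 2)
        + ∑ r, ∑ r' ∈ univ.filter (fun r' => r < r'), (E.filter fun e => u r e ∧ v r' e).card := by
  have key : ∀ e ∈ E,
      ∑ r, ∑ r' ∈ univ.filter (fun r' => w r' = w r), (if u r e ∧ v r' e then 1 else 0)
      ≤ 2 * l ^ 2 + ∑ r, ∑ r' ∈ univ.filter (fun r' => r < r'), (if u r e ∧ v r' e then 1 else 0) := by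
    intro e _
    have h := window_pairs w l L hw hmono hfib (univ.filter fun r => u r e)
      (univ.filter fun r => v r e)
    have h1 : ∑ r, ∑ r' ∈ univ.filter (fun r' => w r' = w r), (if u r e ∧ v r' e then 1 else 0)
        = ∑ r ∈ univ.filter (fun r => u r e),
          ((univ.filter fun r => v r e).filter fun r' => w r' = w r).card := by
      rw [sum_filter]
      refine sum_congr rfl fun r _ => ?_
      by_cases hu : u r e
      · simp only [hu, true_and, if_true]
        rw [← card_filter, filter_filter, filter_filter]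
        congr 1
        ext x
        simp only [mem_filter, mem_univ, true_and]
        tauto
      · simp [hu]
    have h2 : ∑ r, ∑ r' ∈ univ.filter (fun r' => r < r'), (if u r e ∧ v r' e then 1 else 0)
        = ∑ r' ∈ univ.filter (fun r => v r e),
          ((univ.filter fun r => u r e).filter fun r => r < r').card := by
      rw [sum_filter]
      simp_rw [sum_filter]
      rw [sum_comm]
      refine sum_congr rfl fun r' _ => ?_
      by_cases hv : v r' e
      · simp only [hv, and_true, if_true]
        rw [filter_filter, card_filter]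
        refine sum_congr rfl fun x _ => ?_
        by_cases h1 : x < r' <;> by_cases h2 : u x e <;> simp [h1, h2]
      · simp [hv]
    rw [h1, h2]
    exact h
  have h3 : ∀ (s : Fin n → Finset (Fin n)),
      ∑ r, ∑ r' ∈ s r, (E.filter fun e => u r e ∧ v r' e).card
        = ∑ e ∈ E, ∑ r, ∑ r' ∈ s r, (if u r e ∧ v r' e then 1 else 0) := by
    intro s
    rw [sum_comm]
    refine sum_congr rfl fun r _ => ?_
    rw [sum_comm]
    refine sum_congr rfl fun r' _ => ?_
    rw [card_filter]
  rw [h3, h3]
  calc _ ≤ ∑ e ∈ E, (2 * l ^ 2 + ∑ r, ∑ r' ∈ univ.filter (fun r' => r < r'), (if u r e ∧ v r' e then 1 else 0)) :=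
        sum_le_sum key
    _ = _ := by
        rw [sum_add_distrib, sum_const, smul_eq_mul]

end Vale.Agent.Lib.P037
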