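import Vale.Agent.Lib.P037.Family
import Vale.Agent.Lib.P037.Window
import Vale.Agent.Lib.P037.Select
import Vale.Agent.Lib.P037.Forest
import Vale.Agent.Lib.P037.Chain

namespace Vale.Agent.Lib.P037

open Finset

variable {n : ℕ}

lemma window_facts (K s : ℕ) (hK : 0 < K) (hn : K ^ s ≤ n) :
    ∃ (l : ℕ) (w : Fin n → ℕ), 0 < l ∧ (∀ r, w r < K ^ s) ∧ (∀ r r', w r < w r' → r < r') ∧
      (∀ r r', r < r' → w r ≤ w r') ∧
      (∀ W, (univ.filter fun r => w r = W).card ≤ l) ∧ n ≤ K ^ s * l ∧ K ^ s * l ≤ 2 * n := by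
  have hKs : 0 < K ^ s := pow_pos hK s
  set l := n / K ^ s + 1 with hl
  have hl0 : 0 < l := Nat.succ_pos _
  have h1 : n < K ^ s * l := by
    rw [hl]
    exact Nat.lt_mul_div_succ _ hKs
  have h2 : K ^ s * (n / K ^ s) ≤ n := Nat.mul_div_le _ _
  refine ⟨l, fun r => r.val / l, hl0, ?_, ?_, ?_, ?_, le_of_lt h1, ?_⟩
  · intro r
    apply Nat.div_lt_of_lt_mul
    rw [mul_comm]
    exact lt_trans r.isLt h1
  · intro r r' h
    rw [Fin.lt_def]
    by_contra h3
    push Not at h3
    have h4 : r'.val / l ≤ r.val / l := Nat.div_le_div_right h3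
    simp only at h
    omega
  · intro r r' h
    rw [Fin.lt_def] at h
    exact Nat.div_le_div_right (le_of_lt h)
  · intro W
    have hinj : Set.InjOn (fun r : Fin n => r.val % l) (univ.filter fun r : Fin n => r.val / l = W : Finset (Fin n)) := by
      intro a ha b hb hab
      have ha' := (mem_filter.1 (Finset.mem_coe.1 ha)).2
      have hb' := (mem_filter.1 (Finset.mem_coe.1 hb)).2
      simp only at hab
      apply Fin.ext
      rw [← Nat.div_add_mod a.val l, ← Nat.div_add_mod b.val l, ha', hb', hab]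
    have hmaps : ∀ r ∈ (univ.filter fun r : Fin n => r.val / l = W), r.val % l ∈ range l :=
      fun r _ => mem_range.2 (Nat.mod_lt _ hl0)
    have := card_le_card_of_injOn _ hmaps hinj
    simpa using this
  · rw [hl, mul_add, mul_one]
    omega

section generic

variable (U V : Finset (Fin n) → Fin n → Fin n → Prop)
  [∀ x c c', Decidable (U x c c')] [∀ x c c', Decidable (V x c c')]

theorem assemble
    (hUe : ∀ c c', ¬ U ∅ c c') (hVe : ∀ c c', ¬ V ∅ c c')
    (R : Fin n → Finset (Fin n)) (K : ℕ) (hK : 16 ≤ K)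
    (N : ℕ) (hNdef : N = ∑ r, ∑ z ∈ univ.filter (fun z => r < z), hcount U V (R r) (R z))
    (hN1 : K ^ 74 * N ≤ n ^ 4) (hNpos : 0 < N)
    (hfam : 8 * K ≤ n → ∀ T' : Finset (Fin n), (∀ p ∈ T', ∀ q ∈ T', p ≠ q →
      K ^ 8 * hcount U V (R p) (R q) ≤ n ^ 2 ∧ n < K * (symmDiff (R p) (R q)).card) →
      T'.card ≤ K ^ 2)
    (hcover : ∀ x y : Finset (Fin n), ∃ C : Finset (Fin n), C.card ^ 2 ≤ 4 * hcount U V x y ∧
      ∀ D, C ⊆ D → ∀ c c', c < c' → U (x \ D) c c' → V (y \ D) c c' → False)
    (hfinal : ∀ (T D : Finset (Fin n)) (l : ℕ) (w : Fin n → ℕ),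
      (∀ p q, w p < w q → p < q) → K ^ 12 * l ≤ 2 * n →
      (∀ p ∈ T, ∀ q ∈ T, p < q → ∀ c c', c < c' → U (R p \ D) c c' → V (R q \ D) c c' → False) →
      (∀ p ∈ T, ∀ q ∈ T, p ≠ q → w p = w q → K ^ 8 * hcount U V (R p) (R q) ≤ n ^ 2) →
      (∀ W, (T.filter fun t => w t = W).card ≤ K ^ 2) →
      ∃ (X : Fin n → Finset (Fin n)) (b : ℕ → ℕ), (∀ q ∈ T, X q ⊆ R q \ D) ∧
        (∀ p ∈ T, ∀ q ∈ T, w p ≤ w q → ∀ c c', c < c' → U (X p) c c' → V (X q) c c' → False) ∧
        (∀ q ∈ T, ((R q \ D) \ X q).card ≤ b (w q)) ∧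
        K * (l * ∑ W ∈ range (K ^ 12), b W) ≤ 5 * n ^ 2) :
    ∃ X' : Fin n → Finset (Fin n),
      (∀ r r', r < r' → ∀ c c', c < c' → U (X' r) c c' → V (X' r') c c' → False) ∧
      K * ∑ r, (symmDiff (R r) (X' r)).card ≤ 24 * n ^ 2 := by
  classical
  have hK0 : 0 < K := by omega
  have hK1 : 1 ≤ K := by omega
  -- n is large
  have hn18 : K ^ 18 ≤ n := by
    have h1 : (K ^ 18) ^ 4 ≤ n ^ 4 := by
      calc (K ^ 18) ^ 4 = K ^ 72 := by ring
        _ ≤ K ^ 74 := Nat.pow_le_pow_right hK0 (by norm_num)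
        _ ≤ K ^ 74 * N := Nat.le_mul_of_pos_right _ hNpos
        _ ≤ n ^ 4 := hN1
    exact (Nat.pow_le_pow_iff_left (by norm_num)).1 h1
  have hn0 : 0 < n := lt_of_lt_of_le (pow_pos hK0 18) hn18
  have hn12 : K ^ 12 ≤ n := le_trans (Nat.pow_le_pow_right hK0 (by norm_num)) hn18
  have hn8 : 8 * K ≤ n := by
    have h1 : 8 * K ≤ K ^ 2 := by nlinarith
    have h2 : K ^ 2 ≤ K ^ 18 := Nat.pow_le_pow_right hK0 (by norm_num)
    omega
  obtain ⟨l, w, hl0, hw, hmono, hmono', hfib, hl1, hl2⟩ := window_facts (n := n) K 12 hK0 hn12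
  set hc : Fin n → Fin n → ℕ := fun p q => hcount U V (R p) (R q) with hhc
  set far : Fin n → Fin n → Prop := fun p q => n < K * (symmDiff (R p) (R q)).card with hfar
  have hfar0 : ∀ z, ¬ far z z := by
    intro z
    simp [hfar]
  have hfarsym : ∀ p q, far p q → far q p := by
    intro p q h
    simp only [hfar] at h ⊢
    rwa [symmDiff_comm]
  have hS : ∑ r, ∑ z ∈ univ.filter (fun z => w z = w r), hc r z ≤ 2 * l ^ 2 * n ^ 2 + N := by
    have h1 := lemma_A (colPairs n) (fun r e => U (R r) e.1 e.2) (fun r e => V (R r) e.1 e.2)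
      w l (K ^ 12) hw hmono hfib
    have h2 : (colPairs n).card * (2 * l ^ 2) ≤ 2 * l ^ 2 * n ^ 2 := by
      rw [mul_comm]
      exact Nat.mul_le_mul_left _ colPairs_card_le
    rw [hNdef]
    exact le_trans h1 (Nat.add_le_add_right h2 _)
  have hN2 : K ^ (11 + 1 + 12) * N ≤ n ^ 4 := by
    refine le_trans (Nat.mul_le_mul_right _ ?_) hN1
    exact Nat.pow_le_pow_right hK0 (by norm_num)
  obtain ⟨T, hT1, hT2, hcard, hUh⟩ := select hc far hfar0 hfarsym w l (K ^ 12) hw
    K 8 2 12 14 58 15 73 11 hK0 hn0 hl0 (by norm_num) (by norm_num) (by norm_num) (by norm_num)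
    (by norm_num) rfl N hNdef hS hN1 hN2 hl1 hl2 (hfam hn8)
  -- the cover
  choose C hC1 hC2 using hcover
  set D : Finset (Fin n) := T.biUnion fun p => T.biUnion fun q =>
    if p < q then C (R p) (R q) else ∅ with hD
  have hKD : K * D.card ≤ 2 * n := by
    have h1 : ∀ p ∈ T, ∀ q ∈ T, K ^ 14 * (K ^ 14 * (K * (if p < q then C (R p) (R q) else ∅).card))
        ≤ 2 * n := by
      intro p hp q hq
      by_cases hpq : p < q
      · rw [if_pos hpq]
        have h2 := hT1 p hp q hq hpq
        have h3 := hC1 (R p) (R q)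
        have h4 : (K ^ 29 * (C (R p) (R q)).card) ^ 2 ≤ (2 * n) ^ 2 := by
          calc (K ^ 29 * (C (R p) (R q)).card) ^ 2 = K ^ 58 * (C (R p) (R q)).card ^ 2 := by ring
            _ ≤ K ^ 58 * (4 * hcount U V (R p) (R q)) := Nat.mul_le_mul_left _ h3
            _ = 4 * (K ^ 58 * hc p q) := by simp only [hhc]; ring
            _ ≤ 4 * n ^ 2 := Nat.mul_le_mul_left _ h2
            _ = (2 * n) ^ 2 := by ring
        have h5 : K ^ 29 * (C (R p) (R q)).card ≤ 2 * n :=
          (Nat.pow_le_pow_iff_left (by norm_num)).1 h4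
        calc K ^ 14 * (K ^ 14 * (K * (C (R p) (R q)).card))
            = K ^ 29 * (C (R p) (R q)).card := by ring
          _ ≤ 2 * n := h5
      · rw [if_neg hpq]; simp
    have h2 : ∑ p ∈ T, ∑ q ∈ T, K * (if p < q then C (R p) (R q) else ∅).card ≤ 2 * n := by
      apply sum_bound T _ (K ^ 14) (2 * n) hcard (pow_pos hK0 14)
      intro p hp
      rw [mul_sum]
      apply sum_bound T _ (K ^ 14) (2 * n) hcard (pow_pos hK0 14)
      intro q hq
      exact h1 p hp q hq
    calc K * D.card ≤ K * ∑ p ∈ T, (T.biUnion fun q => if p < q then C (R p) (R q) else ∅).card :=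
          Nat.mul_le_mul_left _ card_biUnion_le
      _ ≤ K * ∑ p ∈ T, ∑ q ∈ T, (if p < q then C (R p) (R q) else ∅).card :=
          Nat.mul_le_mul_left _ (sum_le_sum fun p _ => card_biUnion_le)
      _ = ∑ p ∈ T, ∑ q ∈ T, K * (if p < q then C (R p) (R q) else ∅).card := by
          rw [mul_sum]
          exact sum_congr rfl fun p _ => mul_sum _ _ _
      _ ≤ 2 * n := h2
  have hex : ∀ p ∈ T, ∀ q ∈ T, p < q → ∀ c c', c < c' → U (R p \ D) c c' → V (R q \ D) c c' → False := by
    intro p hp q hq hpq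
    apply hC2 (R p) (R q) D
    intro x hx
    rw [hD]
    refine mem_biUnion.2 ⟨p, hp, mem_biUnion.2 ⟨q, hq, ?_⟩⟩
    rw [if_pos hpq]
    exact hx
  have hTW : ∀ W, (T.filter fun t => w t = W).card ≤ K ^ 2 := by
    intro W
    apply hfam hn8
    intro p hp q hq hpq
    have hp' := mem_filter.1 hp
    have hq' := mem_filter.1 hq
    exact hT2 p hp'.1 q hq'.1 hpq (by rw [hp'.2, hq'.2])
  obtain ⟨X, b, hX1, hX2, hX3, hX4⟩ := hfinal T D l w hmono hl2 hex
    (fun p hp q hq hpq hwpq => (hT2 p hp q hq hpq hwpq).1) hTW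
  -- the final rows
  set Hit : Fin n → Prop := fun z => ∃ t ∈ T, w t = w z ∧ ¬ far z t with hHit
  have hρ : ∀ z, ∃ t, Hit z → t ∈ T ∧ w t = w z ∧ ¬ far z t := by
    intro z
    by_cases hz : Hit z
    · obtain ⟨t, h1, h2, h3⟩ := hz
      exact ⟨t, fun _ => ⟨h1, h2, h3⟩⟩
    · exact ⟨z, fun h => absurd h hz⟩
  choose ρ hρ using hρ
  set X' : Fin n → Finset (Fin n) := fun z => if Hit z then X (ρ z) else ∅ with hX'
  refine ⟨X', ?_, ?_⟩
  · intro r r' hrr' c c' hcc' h1 h2
    by_cases hr : Hit r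
    · by_cases hr' : Hit r'
      · simp only [hX', if_pos hr] at h1
        simp only [hX', if_pos hr'] at h2
        obtain ⟨h3, h4, _⟩ := hρ r hr
        obtain ⟨h5, h6, _⟩ := hρ r' hr'
        refine hX2 _ h3 _ h5 ?_ c c' hcc' h1 h2
        rw [h4, h6]
        exact hmono' r r' hrr'
      · simp only [hX', if_neg hr'] at h2
        exact hVe c c' h2
    · simp only [hX', if_neg hr] at h1
      exact hUe c c' h1
  · -- cost
    set Uh := univ.filter fun z => ¬ Hit z with hUhdef
    have hUhc : K * Uh.card ≤ 16 * n := by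
      apply hUh
      intro z hz
      exact (mem_filter.1 hz).2
    have hcardR : ∀ z, (R z).card ≤ n := fun z => by
      calc (R z).card ≤ (univ : Finset (Fin n)).card := card_le_card (subset_univ _)
        _ = n := by simp
    have hrow : ∀ z, K * (symmDiff (R z) (X' z)).card
        ≤ (if Hit z then 0 else K * n) + (3 * n + K * b (w z)) := by
      intro z
      by_cases hz : Hit z
      · simp only [hX', if_pos hz, zero_add]
        obtain ⟨h3, h4, h5⟩ := hρ z hz
        set t := ρ z with ht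
        have h6 : K * (symmDiff (R z) (R t)).card ≤ n := by
          simp only [hfar, not_lt] at h5
          exact h5
        have h7 : ((R t \ D) \ X t).card ≤ b (w z) := by
          rw [← h4]; exact hX3 t h3
        have h8 : symmDiff (R z) (X t) ⊆ symmDiff (R z) (R t) ∪ (D ∪ ((R t \ D) \ X t)) := by
          intro c hc
          have hsub := hX1 t h3
          rw [mem_symmDiff] at hc
          rcases hc with ⟨h9, h10⟩ | ⟨h9, h10⟩
          · by_cases h11 : c ∈ R t
            · by_cases h12 : c ∈ D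
              · exact mem_union_right _ (mem_union_left _ h12)
              · refine mem_union_right _ (mem_union_right _ ?_)
                exact mem_sdiff.2 ⟨mem_sdiff.2 ⟨h11, h12⟩, h10⟩
            · refine mem_union_left _ ?_
              rw [mem_symmDiff]
              exact Or.inl ⟨h9, h11⟩
          · have h11 := (mem_sdiff.1 (hsub h9)).1
            refine mem_union_left _ ?_
            rw [mem_symmDiff]
            exact Or.inr ⟨h11, h10⟩
        have h9 : (symmDiff (R z) (X t)).card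
            ≤ (symmDiff (R z) (R t)).card + (D.card + ((R t \ D) \ X t).card) := by
          refine le_trans (card_le_card h8) (le_trans (card_union_le _ _) ?_)
          exact Nat.add_le_add_left (card_union_le _ _) _
        calc K * (symmDiff (R z) (X t)).card
            ≤ K * ((symmDiff (R z) (R t)).card + (D.card + ((R t \ D) \ X t).card)) :=
              Nat.mul_le_mul_left _ h9
          _ = K * (symmDiff (R z) (R t)).card + K * D.card + K * ((R t \ D) \ X t).card := by ring
          _ ≤ n + 2 * n + K * b (w z) := by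
              have := Nat.mul_le_mul_left K h7
              omega
          _ = 3 * n + K * b (w z) := by ring
      · simp only [hX', if_neg hz]
        have h3 : (symmDiff (R z) (∅ : Finset (Fin n))).card ≤ n := by
          calc _ ≤ (univ : Finset (Fin n)).card := card_le_card (subset_univ _)
            _ = n := by simp
        have := Nat.mul_le_mul_left K h3
        omega
    have hsum1 : ∑ z, (if Hit z then 0 else K * n) ≤ 16 * n ^ 2 := by
      have h1 : ∑ z, (if Hit z then 0 else K * n) = Uh.card * (K * n) := by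
        rw [hUhdef, card_filter, sum_mul]
        refine sum_congr rfl fun z _ => ?_
        by_cases hz : Hit z <;> simp [hz]
      rw [h1]
      calc Uh.card * (K * n) = K * Uh.card * n := by ring
        _ ≤ 16 * n * n := Nat.mul_le_mul_right _ hUhc
        _ = 16 * n ^ 2 := by ring
    have hsum2 : ∑ z, b (w z) ≤ l * ∑ W ∈ range (K ^ 12), b W := by
      rw [← sum_fiberwise_of_maps_to (s := univ) (t := range (K ^ 12)) (g := w)
        (fun x _ => mem_range.2 (hw x)), mul_sum]
      refine sum_le_sum fun W _ => ?_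
      calc ∑ z ∈ univ.filter (fun z => w z = W), b (w z)
          = ∑ _z ∈ univ.filter (fun z => w z = W), b W :=
            sum_congr rfl fun z hz => by rw [(mem_filter.1 hz).2]
        _ = (univ.filter (fun z => w z = W)).card * b W := by rw [sum_const, smul_eq_mul]
        _ ≤ l * b W := Nat.mul_le_mul_right _ (hfib W)
    calc K * ∑ r, (symmDiff (R r) (X' r)).card
        = ∑ r, K * (symmDiff (R r) (X' r)).card := by rw [mul_sum]
      _ ≤ ∑ z, ((if Hit z then 0 else K * n) + (3 * n + K * b (w z))) := sum_le_sum fun z _ => hrow z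
      _ = ∑ z, (if Hit z then 0 else K * n) + (n * (3 * n) + K * ∑ z, b (w z)) := by
          rw [sum_add_distrib, sum_add_distrib, sum_const, card_univ, Fintype.card_fin, smul_eq_mul,
            mul_sum]
      _ ≤ 16 * n ^ 2 + (n * (3 * n) + K * (l * ∑ W ∈ range (K ^ 12), b W)) := by
          have := Nat.mul_le_mul_left K hsum2
          omega
      _ ≤ 24 * n ^ 2 := by
          have h5 : n * (3 * n) = 3 * n ^ 2 := by ring
          omega

end generic

end Vale.Agent.Lib.P037
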