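import Vale.Agent.Lib.P037.Assemble

namespace Vale.Agent.Lib.P037

open Finset

variable {n : ℕ}

/-- The zero case: no copies at all. -/
lemma core_zero (U V : Finset (Fin n) → Fin n → Fin n → Prop)
    [∀ x c c', Decidable (U x c c')] [∀ x c c', Decidable (V x c c')]
    (R : Fin n → Finset (Fin n)) (K : ℕ)
    (hN : ∑ r, ∑ z ∈ univ.filter (fun z => r < z), hcount U V (R r) (R z) = 0) :
    ∃ X' : Fin n → Finset (Fin n),
      (∀ r r', r < r' → ∀ c c', c < c' → U (X' r) c c' → V (X' r') c c' → False) ∧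
      K * ∑ r, (symmDiff (R r) (X' r)).card ≤ 24 * n ^ 2 := by
  refine ⟨R, ?_, ?_⟩
  · intro r r' hrr' c c' hcc' h1 h2
    have h3 := (sum_eq_zero_iff.1 hN) r (mem_univ _)
    have h4 := (sum_eq_zero_iff.1 h3) r' (mem_filter.2 ⟨mem_univ _, hrr'⟩)
    have h5 := card_eq_zero.1 h4
    have h6 : (c, c') ∈ (colPairs n).filter fun e => U (R r) e.1 e.2 ∧ V (R r') e.1 e.2 :=
      mem_filter.2 ⟨mem_filter.2 ⟨mem_univ _, hcc'⟩, h1, h2⟩
    rw [h5] at h6
    exact absurd h6 (notMem_empty _)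
  · simp

theorem core_G (R : Fin n → Finset (Fin n)) (K : ℕ) (hK : 16 ≤ K)
    (hN1 : K ^ 74 * ∑ r, ∑ z ∈ univ.filter (fun z => r < z), hcount UG VG (R r) (R z) ≤ n ^ 4) :
    ∃ X' : Fin n → Finset (Fin n),
      (∀ r r', r < r' → ∀ c c', c < c' → UG (X' r) c c' → VG (X' r') c c' → False) ∧
      K * ∑ r, (symmDiff (R r) (X' r)).card ≤ 24 * n ^ 2 := by
  classical
  rcases Nat.eq_zero_or_pos (∑ r, ∑ z ∈ univ.filter (fun z => r < z), hcount UG VG (R r) (R z))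
    with hN0 | hNpos
  · exact core_zero UG VG R K hN0
  refine assemble UG VG (fun c c' h => ?_) (fun c c' h => ?_) R K hK _ rfl hN1 hNpos ?_ ?_ ?_
  · simpa [UG] using h.1
  · simpa [VG] using h.1
  · intro hn T' h
    exact fam_G K hK hn R T' h
  · intro x y
    have hd : Disjoint (x ∩ y) (x \ y) := by
      rw [disjoint_left]
      intro a h1 h2
      exact (mem_sdiff.1 h2).2 (mem_inter.1 h1).2
    obtain ⟨C, hC1, hC2⟩ := stair_cover (x ∩ y) (x \ y) hd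
    refine ⟨C, by rw [hcount_G]; exact hC1, ?_⟩
    intro D hCD c c' hcc' h1 h2
    obtain ⟨h3, h4⟩ := h1
    obtain ⟨h5, h6⟩ := h2
    obtain ⟨h3a, h3b⟩ := mem_sdiff.1 h3
    obtain ⟨h4a, h4b⟩ := mem_sdiff.1 h4
    obtain ⟨h5a, _⟩ := mem_sdiff.1 h5
    have h7 : c' ∉ y := fun h => h6 (mem_sdiff.2 ⟨h, h4b⟩)
    exact hC2 c (mem_inter.2 ⟨h3a, h5a⟩) c' (mem_sdiff.2 ⟨h4a, h7⟩)
      (fun h => h3b (hCD h)) (fun h => h4b (hCD h)) hcc'
  · intro T D l w hmono hl hex _ _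
    have hex' : ∀ p ∈ T, ∀ q ∈ T, p < q → ∀ c c', c < c' → c ∈ R p \ D → c' ∈ R p \ D →
        c ∈ R q \ D → c' ∈ R q \ D := by
      intro p hp q hq hpq c c' hcc' h1 h2 h3
      by_contra h4
      exact hex p hp q hq hpq c c' hcc' ⟨h1, h2⟩ ⟨h3, h4⟩
    obtain ⟨X, b, h1, h2, h3, h4⟩ := forest_final T (fun p => R p \ D) w hmono hex' (K ^ 12)
    refine ⟨X, b, h1, ?_, h3, ?_⟩
    · intro p hp q hq hpq c c' hcc' h5 h6
      exact h6.2 (h2 p hp q hq hpq c c' hcc' h5.1 h5.2 h6.1)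
    · set B := ∑ W ∈ range (K ^ 12), b W with hB
      have h5 : (K * (l * B)) ^ 2 ≤ (5 * n ^ 2) ^ 2 := by
        have h6 : 1 ≤ K ^ 10 := Nat.one_le_pow _ _ (by omega)
        calc (K * (l * B)) ^ 2 ≤ K ^ 10 * (K * (l * B)) ^ 2 := Nat.le_mul_of_pos_left _ (by omega)
          _ = K ^ 12 * l ^ 2 * B ^ 2 := by ring
          _ ≤ K ^ 12 * l ^ 2 * (K ^ 12 * (2 * n ^ 2)) := Nat.mul_le_mul_left _ h4
          _ = (K ^ 12 * l) ^ 2 * (2 * n ^ 2) := by ring
          _ ≤ (2 * n) ^ 2 * (2 * n ^ 2) := Nat.mul_le_mul_right _ (Nat.pow_le_pow_left hl 2)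
          _ = 8 * (n ^ 2) ^ 2 := by ring
          _ ≤ (5 * n ^ 2) ^ 2 := by nlinarith
      exact (Nat.pow_le_pow_iff_left (by norm_num)).1 h5

theorem core_I (R : Fin n → Finset (Fin n)) (K : ℕ) (hK : 16 ≤ K)
    (hN1 : K ^ 74 * ∑ r, ∑ z ∈ univ.filter (fun z => r < z), hcount UI VI (R r) (R z) ≤ n ^ 4) :
    ∃ X' : Fin n → Finset (Fin n),
      (∀ r r', r < r' → ∀ c c', c < c' → UI (X' r) c c' → VI (X' r') c c' → False) ∧
      K * ∑ r, (symmDiff (R r) (X' r)).card ≤ 24 * n ^ 2 := by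
  classical
  rcases Nat.eq_zero_or_pos (∑ r, ∑ z ∈ univ.filter (fun z => r < z), hcount UI VI (R r) (R z))
    with hN0 | hNpos
  · exact core_zero UI VI R K hN0
  have hK0 : 0 < K := by omega
  refine assemble UI VI (fun c c' h => ?_) (fun c c' h => ?_) R K hK _ rfl hN1 hNpos ?_ ?_ ?_
  · simpa [UI] using h.1
  · simpa [VI] using h.2
  · intro _ T' h
    exact fam_I K (by omega) R T' h
  · intro x y
    have hd : Disjoint (x \ y) (y \ x) := disjoint_sdiff_sdiff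
    obtain ⟨C, hC1, hC2⟩ := stair_cover (x \ y) (y \ x) hd
    refine ⟨C, by rw [hcount_I]; exact hC1, ?_⟩
    intro D hCD c c' hcc' h1 h2
    obtain ⟨h3, h4⟩ := h1
    obtain ⟨h5, h6⟩ := h2
    obtain ⟨h3a, h3b⟩ := mem_sdiff.1 h3
    obtain ⟨h6a, h6b⟩ := mem_sdiff.1 h6
    have h7 : c ∉ y := fun h => h5 (mem_sdiff.2 ⟨h, h3b⟩)
    have h8 : c' ∉ x := fun h => h4 (mem_sdiff.2 ⟨h, h6b⟩)
    exact hC2 c (mem_sdiff.2 ⟨h3a, h7⟩) c' (mem_sdiff.2 ⟨h6a, h8⟩)
      (fun h => h3b (hCD h)) (fun h => h6b (hCD h)) hcc'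
  · intro T D l w hmono hl hex hmod hTW
    have hex' : ∀ p ∈ T, ∀ q ∈ T, p < q → ∀ c c', c < c' → c ∈ R p \ D → c' ∉ R p \ D →
        c ∉ R q \ D → c' ∈ R q \ D → False := by
      intro p hp q hq hpq c c' hcc' h1 h2 h3 h4
      exact hex p hp q hq hpq c c' hcc' ⟨h1, h2⟩ ⟨h3, h4⟩
    have hmod' : ∀ p ∈ T, ∀ q ∈ T, p ≠ q → w p = w q → ((R p \ D)).card ≤ ((R q \ D)).card →
        K ^ 3 * ((R p \ D) \ (R q \ D)).card ≤ n := by
      intro p hp q hq hpq hw hle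
      have h1 := hmod p hp q hq hpq hw
      have h2 := hmod q hq p hp hpq.symm hw.symm
      have h3 := hcount_I_add (R p) (R q)
      set x' := ((R p \ D) \ (R q \ D)).card with hx'
      set y' := ((R q \ D) \ (R p \ D)).card with hy'
      have h4 : x' ≤ y' := by
        have h6 := card_sdiff_add_card_inter (R p \ D) (R q \ D)
        have h7 := card_sdiff_add_card_inter (R q \ D) (R p \ D)
        rw [inter_comm] at h7
        omega
      have h5 : x' ≤ (R p \ R q).card := by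
        apply card_le_card
        intro c hc
        obtain ⟨h6, h7⟩ := mem_sdiff.1 hc
        obtain ⟨h8, h9⟩ := mem_sdiff.1 h6
        exact mem_sdiff.2 ⟨h8, fun h => h7 (mem_sdiff.2 ⟨h, h9⟩)⟩
      have h6 : y' ≤ (R q \ R p).card := by
        apply card_le_card
        intro c hc
        obtain ⟨h6, h7⟩ := mem_sdiff.1 hc
        obtain ⟨h8, h9⟩ := mem_sdiff.1 h6
        exact mem_sdiff.2 ⟨h8, fun h => h7 (mem_sdiff.2 ⟨h, h9⟩)⟩
      have h7 : K ^ 8 * x' ^ 2 ≤ 2 * n ^ 2 := by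
        calc K ^ 8 * x' ^ 2 ≤ K ^ 8 * ((R p \ R q).card * (R q \ R p).card) := by
              apply Nat.mul_le_mul_left
              rw [sq]
              exact Nat.mul_le_mul h5 (le_trans h4 h6)
          _ = K ^ 8 * hcount UI VI (R p) (R q) + K ^ 8 * hcount UI VI (R q) (R p) := by
              rw [← h3]; ring
          _ ≤ 2 * n ^ 2 := by omega
      have h8 : (K ^ 3 * x') ^ 2 ≤ n ^ 2 := by
        have h9 : K ^ 2 * (K ^ 3 * x') ^ 2 ≤ K ^ 2 * n ^ 2 := by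
          calc K ^ 2 * (K ^ 3 * x') ^ 2 = K ^ 8 * x' ^ 2 := by ring
            _ ≤ 2 * n ^ 2 := h7
            _ ≤ K ^ 2 * n ^ 2 := by
              apply Nat.mul_le_mul_right
              nlinarith
        exact Nat.le_of_mul_le_mul_left h9 (by positivity)
      exact (Nat.pow_le_pow_iff_left (by norm_num)).1 h8
    obtain ⟨X, h1, h2, h3⟩ := chain_final T (fun p => R p \ D) w hmono hex' (K ^ 3) (K ^ 2) hmod' hTW
    refine ⟨X, fun _ => n / K, h1, ?_, ?_, ?_⟩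
    · intro p hp q hq hpq c c' hcc' h5 h6
      exact h2 p hp q hq hpq c c' hcc' h5.1 h5.2 h6.1 h6.2
    · intro q hq
      rw [Nat.le_div_iff_mul_le hK0]
      have h4 := h3 q hq
      have h5 : K ^ 2 * (((R q \ D) \ X q).card * K) ≤ K ^ 2 * n := by
        calc K ^ 2 * (((R q \ D) \ X q).card * K) = K ^ 3 * ((R q \ D) \ X q).card := by ring
          _ ≤ K ^ 2 * n := h4
      exact Nat.le_of_mul_le_mul_left h5 (by positivity)
    · rw [sum_const, card_range, smul_eq_mul]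
      have h4 : K * (n / K) ≤ n := Nat.mul_div_le _ _
      calc K * (l * (K ^ 12 * (n / K))) = (K ^ 12 * l) * (K * (n / K)) := by ring
        _ ≤ (2 * n) * n := Nat.mul_le_mul hl h4
        _ = 2 * n ^ 2 := by ring
        _ ≤ 5 * n ^ 2 := by omega

end Vale.Agent.Lib.P037
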