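import Mathlib

namespace Vale.Agent.Lib.P037

open Finset

/-- The number of ordered copies of the `k × k` binary matrix `H` in the `n × n` binary matrix `A`:
pairs of strictly increasing index maps `r, c : Fin k → Fin n` with `A (r i) (c j) = H i j` for all
`i, j`. -/
def orderedCopies {k n : ℕ} (H : Fin k → Fin k → Bool) (A : Fin n → Fin n → Bool) : ℕ :=
  (univ.filter fun p : (Fin k → Fin n) × (Fin k → Fin n) =>
    StrictMono p.1 ∧ StrictMono p.2 ∧ ∀ i j, A (p.1 i) (p.2 j) = H i j).card

/-- The number of entries in which two `n × n` binary matrices differ. -/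
def entryDist {n : ℕ} (A B : Fin n → Fin n → Bool) : ℕ :=
  (univ.filter fun p : Fin n × Fin n => A p.1 p.2 ≠ B p.1 p.2).card

/-- `A` is `ε`-far from `H`-free: every `H`-free `n × n` matrix `B` differs from `A` in at least
`ε n²` entries. -/
def FarFromFree {k n : ℕ} (H : Fin k → Fin k → Bool) (ε : ℝ) (A : Fin n → Fin n → Bool) : Prop :=
  ∀ B : Fin n → Fin n → Bool, orderedCopies H B = 0 → ε * (n : ℝ) ^ 2 ≤ (entryDist A B : ℝ)

end Vale.Agent.Lib.P037
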