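import Vale.Agent.Lib.P037.Stair

namespace Vale.Agent.Lib.P037

open Finset

variable {n : ℕ}

/-- Pairs of columns in increasing order. -/
def colPairs (n : ℕ) : Finset (Fin n × Fin n) := univ.filter fun e => e.1 < e.2

lemma colPairs_card_le : (colPairs n).card ≤ n ^ 2 := by
  calc (colPairs n).card ≤ (univ : Finset (Fin n × Fin n)).card := card_le_card (filter_subset _ _)
    _ = n ^ 2 := by simp [sq]

/-- Count of column pairs carrying the letters `U` in the first row set and `V` in the second. -/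
def hcount (U V : Finset (Fin n) → Fin n → Fin n → Prop)
    [∀ x c c', Decidable (U x c c')] [∀ x c c', Decidable (V x c c')]
    (x y : Finset (Fin n)) : ℕ :=
  ((colPairs n).filter fun e => U x e.1 e.2 ∧ V y e.1 e.2).card

/-- Top letter of the corner pattern. -/
def UG (x : Finset (Fin n)) (c c' : Fin n) : Prop := c ∈ x ∧ c' ∈ x
/-- Bottom letter of the corner pattern. -/
def VG (x : Finset (Fin n)) (c c' : Fin n) : Prop := c ∈ x ∧ c' ∉ x
/-- Top letter of the identity pattern. -/
def UI (x : Finset (Fin n)) (c c' : Fin n) : Prop := c ∈ x ∧ c' ∉ x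
/-- Bottom letter of the identity pattern. -/
def VI (x : Finset (Fin n)) (c c' : Fin n) : Prop := c ∉ x ∧ c' ∈ x

instance (x : Finset (Fin n)) (c c' : Fin n) : Decidable (UG x c c') := by unfold UG; infer_instance
instance (x : Finset (Fin n)) (c c' : Fin n) : Decidable (VG x c c') := by unfold VG; infer_instance
instance (x : Finset (Fin n)) (c c' : Fin n) : Decidable (UI x c c') := by unfold UI; infer_instance
instance (x : Finset (Fin n)) (c c' : Fin n) : Decidable (VI x c c') := by unfold VI; infer_instance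

lemma hcount_G (x y : Finset (Fin n)) : hcount UG VG x y = invCount (x ∩ y) (x \ y) := by
  unfold hcount invCount colPairs
  congr 1
  ext e
  simp only [mem_filter, mem_univ, true_and, mem_product, mem_inter, mem_sdiff]
  simp only [UG, VG]
  tauto

lemma hcount_I (x y : Finset (Fin n)) : hcount UI VI x y = invCount (x \ y) (y \ x) := by
  unfold hcount invCount colPairs
  congr 1
  ext e
  simp only [mem_filter, mem_univ, true_and, mem_product, mem_sdiff]
  simp only [UI, VI]
  tauto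

lemma hcount_I_add (x y : Finset (Fin n)) :
    hcount UI VI x y + hcount UI VI y x = (x \ y).card * (y \ x).card := by
  rw [hcount_I, hcount_I, ← card_product]
  unfold invCount
  have h1 : ((y \ x) ×ˢ (x \ y)).filter (fun p => p.1 < p.2)
      = (((x \ y) ×ˢ (y \ x)).filter (fun p => p.2 < p.1)).image Prod.swap := by
    ext p
    simp only [mem_filter, mem_product, mem_image, Prod.exists]
    constructor
    · rintro ⟨⟨h1, h2⟩, h3⟩
      exact ⟨p.2, p.1, ⟨⟨h2, h1⟩, h3⟩, rfl⟩
    · rintro ⟨a, b, ⟨⟨h1, h2⟩, h3⟩, rfl⟩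
      exact ⟨⟨h2, h1⟩, h3⟩
  rw [h1, card_image_of_injective _ Prod.swap_injective, ← card_union_of_disjoint]
  · congr 1
    ext p
    simp only [mem_union, mem_filter, mem_product, mem_sdiff]
    constructor
    · rintro (⟨h, _⟩ | ⟨h, _⟩) <;> exact h
    · intro h
      rcases lt_trichotomy p.1 p.2 with h2 | h2 | h2
      · exact Or.inl ⟨h, h2⟩
      · exfalso
        rw [h2] at h
        exact h.1.2 h.2.1
      · exact Or.inr ⟨h, h2⟩
  · rw [disjoint_left]
    intro p hp hp'
    exact lt_asymm (mem_filter.1 hp).2 (mem_filter.1 hp').2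

lemma card_symmDiff_eq (x y : Finset (Fin n)) :
    (symmDiff x y).card = (x \ y).card + (y \ x).card := by
  rw [symmDiff_def, sup_eq_union, card_union_of_disjoint]
  exact disjoint_sdiff_sdiff

/-- Family bound for the identity pattern. -/
lemma fam_I (K : ℕ) (hK : 3 ≤ K) (R : Fin n → Finset (Fin n)) (T' : Finset (Fin n))
    (h : ∀ p ∈ T', ∀ q ∈ T', p ≠ q →
      K ^ 8 * hcount UI VI (R p) (R q) ≤ n ^ 2 ∧ n < K * (symmDiff (R p) (R q)).card) :
    T'.card ≤ K ^ 2 := by
  classical
  have key : ∀ p ∈ T', ∀ q ∈ T', p ≠ q → (R p).card ≤ (R q).card →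
      2 * K * (R p).card + n < 2 * K * (R q).card := by
    intro p hp q hq hpq hle
    obtain ⟨h1, h2⟩ := h p hp q hq hpq
    obtain ⟨h3, _⟩ := h q hq p hp hpq.symm
    rw [card_symmDiff_eq] at h2
    have h4 := hcount_I_add (R p) (R q)
    set x := (R p \ R q).card with hx
    set y := (R q \ R p).card with hy
    have h5 : (R p).card + y = (R q).card + x := by
      have h6 := card_sdiff_add_card_inter (R p) (R q)
      have h7 := card_sdiff_add_card_inter (R q) (R p)
      rw [inter_comm] at h7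
      omega
    have hxy : x ≤ y := by omega
    have h6 : K ^ 8 * x ^ 2 ≤ 2 * n ^ 2 := by
      calc K ^ 8 * x ^ 2 ≤ K ^ 8 * (x * y) := by
            apply Nat.mul_le_mul_left
            rw [sq]
            exact Nat.mul_le_mul_left _ hxy
        _ = K ^ 8 * hcount UI VI (R p) (R q) + K ^ 8 * hcount UI VI (R q) (R p) := by
            rw [← h4]; ring
        _ ≤ 2 * n ^ 2 := by omega
    have h7 : (K ^ 3 * x) ^ 2 ≤ n ^ 2 := by
      have h8 : K ^ 2 * (K ^ 3 * x) ^ 2 ≤ K ^ 2 * n ^ 2 := by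
        calc K ^ 2 * (K ^ 3 * x) ^ 2 = K ^ 8 * x ^ 2 := by ring
          _ ≤ 2 * n ^ 2 := h6
          _ ≤ K ^ 2 * n ^ 2 := by
            apply Nat.mul_le_mul_right
            nlinarith
      exact Nat.le_of_mul_le_mul_left h8 (by positivity)
    have h8 : K ^ 3 * x ≤ n := (Nat.pow_le_pow_iff_left (by norm_num)).1 h7
    have h9 : 4 * (K * x) ≤ n := by
      have h10 : 9 * (K * x) ≤ K ^ 3 * x := by
        have h11 : 9 ≤ K ^ 2 := by nlinarith
        calc 9 * (K * x) ≤ K ^ 2 * (K * x) := Nat.mul_le_mul_right _ h11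
          _ = K ^ 3 * x := by ring
      omega
    have h10 : K * x + K * y > n := by
      calc K * x + K * y = K * (x + y) := by ring
        _ > n := h2
    have h11 : 2 * K * (R p).card + 2 * (K * y) = 2 * K * (R q).card + 2 * (K * x) := by
      calc 2 * K * (R p).card + 2 * (K * y) = 2 * K * ((R p).card + y) := by ring
        _ = 2 * K * ((R q).card + x) := by rw [h5]
        _ = _ := by ring
    omega
  rcases Nat.eq_zero_or_pos n with h0 | hn
  · subst h0
    have : T' = ∅ := by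
      ext x
      exact x.elim0
    rw [this]
    simp
  have hcardle : ∀ p, (R p).card ≤ n := fun p => by
    calc (R p).card ≤ (univ : Finset (Fin n)).card := card_le_card (subset_univ _)
      _ = n := by simp
  have hinj : Set.InjOn (fun p => 2 * K * (R p).card / n) (T' : Set (Fin n)) := by
    intro p hp q hq hf
    by_contra hpq
    simp only at hf
    have aux : ∀ a b : ℕ, a + n < b → a / n < b / n := by
      intro a b hab
      calc a / n < a / n + 1 := Nat.lt_succ_self _
        _ = (a + n) / n := (Nat.add_div_right a hn).symm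
        _ ≤ b / n := Nat.div_le_div_right (le_of_lt hab)
    rcases le_total (R p).card (R q).card with hle | hle
    · have := aux _ _ (key p hp q hq hpq hle)
      omega
    · have := aux _ _ (key q hq p hp (fun h => hpq h.symm) hle)
      omega
  have hmaps : ∀ p ∈ T', 2 * K * (R p).card / n ∈ range (2 * K + 1) := by
    intro p _
    rw [mem_range, Nat.lt_succ_iff]
    apply Nat.div_le_of_le_mul
    rw [mul_comm n]
    exact Nat.mul_le_mul_left _ (hcardle p)
  have h3 := card_le_card_of_injOn _ hmaps hinj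
  rw [card_range] at h3
  nlinarith

lemma init_segment (x : Finset (Fin n)) (d : ℕ) (hd : d ≤ x.card) :
    ∃ S ⊆ x, S.card = d ∧ ∀ a ∈ S, ∀ b ∈ x \ S, a < b := by
  obtain ⟨t, ht⟩ := exists_prefix_card x d hd
  refine ⟨x.filter fun c => c.val < t, filter_subset _ _, ht, ?_⟩
  intro a ha b hb
  obtain ⟨_, h2⟩ := mem_filter.1 ha
  obtain ⟨h3, h4⟩ := mem_sdiff.1 hb
  rw [Fin.lt_def]
  by_contra h5
  exact h4 (mem_filter.2 ⟨h3, by omega⟩)

lemma pair_bound (x y Sx Sy : Finset (Fin n)) (d : ℕ) (hSx : Sx ⊆ x) (hSy : Sy ⊆ y)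
    (hcx : Sx.card = d)
    (hord : ∀ a ∈ Sx, ∀ b ∈ x \ Sx, a < b) (hbig : 2 * d ≤ (x \ y).card) :
    d * (Sx ∩ Sy).card ≤ hcount UG VG x y := by
  classical
  rw [hcount_G]
  set B := (x \ y) \ Sx with hB
  have hBcard : d ≤ B.card := by
    have h1 : (x \ y).card ≤ B.card + Sx.card := by
      have h2 : x \ y ⊆ B ∪ Sx := by
        intro c hc
        by_cases h3 : c ∈ Sx
        · exact mem_union_right _ h3
        · exact mem_union_left _ (mem_sdiff.2 ⟨hc, h3⟩)
      exact le_trans (card_le_card h2) (card_union_le _ _)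
    omega
  calc d * (Sx ∩ Sy).card ≤ B.card * (Sx ∩ Sy).card := Nat.mul_le_mul_right _ hBcard
    _ = (Sx ∩ Sy).card * B.card := mul_comm _ _
    _ = ((Sx ∩ Sy) ×ˢ B).card := (card_product _ _).symm
    _ ≤ invCount (x ∩ y) (x \ y) := by
      apply card_le_card
      intro p hp
      obtain ⟨h1, h2⟩ := mem_product.1 hp
      obtain ⟨h3, h4⟩ := mem_inter.1 h1
      obtain ⟨h5, h6⟩ := mem_sdiff.1 h2
      refine mem_filter.2 ⟨mem_product.2 ⟨mem_inter.2 ⟨hSx h3, hSy h4⟩, h5⟩, ?_⟩
      exact hord _ h3 _ (mem_sdiff.2 ⟨(mem_sdiff.1 h5).1, h6⟩)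

/-- Family bound for the corner pattern. -/
lemma fam_G (K : ℕ) (hK : 16 ≤ K) (hn : 8 * K ≤ n) (R : Fin n → Finset (Fin n)) (T' : Finset (Fin n))
    (h : ∀ p ∈ T', ∀ q ∈ T', p ≠ q →
      K ^ 8 * hcount UG VG (R p) (R q) ≤ n ^ 2 ∧ n < K * (symmDiff (R p) (R q)).card) :
    T'.card ≤ K ^ 2 := by
  classical
  have hK0 : 0 < K := by omega
  have hn0 : 0 < n := by omega
  set d := n / (4 * K) with hd
  have hd1 : 4 * K * d ≤ n := Nat.mul_div_le _ _
  have hd2 : n < 4 * K * (d + 1) := Nat.lt_mul_div_succ _ (by omega)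
  have hd0 : 1 ≤ d := by
    rw [hd]
    exact (Nat.le_div_iff_mul_le (by omega)).2 (by omega)
  have hd3 : n < 8 * K * d := by
    have : 4 * K * (d + 1) ≤ 8 * K * d := by nlinarith
    omega
  -- small rows
  set T2 := T'.filter fun p => d ≤ (R p).card with hT2
  have hsmall : (T'.filter fun p => ¬ d ≤ (R p).card).card ≤ 1 := by
    rw [card_le_one]
    intro p hp q hq
    by_contra hpq
    obtain ⟨hp1, hp2⟩ := mem_filter.1 hp
    obtain ⟨hq1, hq2⟩ := mem_filter.1 hq
    obtain ⟨_, h2⟩ := h p hp1 q hq1 hpq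
    have h3 : (symmDiff (R p) (R q)).card ≤ 2 * d := by
      rw [card_symmDiff_eq]
      have := card_le_card (sdiff_subset : R p \ R q ⊆ R p)
      have := card_le_card (sdiff_subset : R q \ R p ⊆ R q)
      omega
    have h4 : K * (symmDiff (R p) (R q)).card ≤ K * (2 * d) := Nat.mul_le_mul_left _ h3
    nlinarith
  have hcard : T'.card ≤ T2.card + 1 := by
    have h9 : T2.card + (T'.filter fun p => ¬ d ≤ (R p).card).card = T'.card :=
      card_filter_add_card_filter_not _
    omega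
  -- initial segments
  have hseg : ∀ p ∈ T2, ∃ S ⊆ R p, S.card = d ∧ ∀ a ∈ S, ∀ b ∈ R p \ S, a < b := fun p hp =>
    init_segment (R p) d (mem_filter.1 hp).2
  choose! S hS1 hS2 hS3 using hseg
  have hpair : ∀ p ∈ T2, ∀ q ∈ T2, p ≠ q → K ^ 8 * (d * (S p ∩ S q).card) ≤ n ^ 2 := by
    intro p hp q hq hpq
    obtain ⟨h1, h2⟩ := h p (mem_filter.1 hp).1 q (mem_filter.1 hq).1 hpq
    obtain ⟨h3, _⟩ := h q (mem_filter.1 hq).1 p (mem_filter.1 hp).1 hpq.symm
    rw [card_symmDiff_eq] at h2
    have h4 : 4 * d < (R p \ R q).card + (R q \ R p).card := by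
      by_contra h5
      have h6 : K * ((R p \ R q).card + (R q \ R p).card) ≤ K * (4 * d) :=
        Nat.mul_le_mul_left _ (by omega)
      nlinarith
    rcases le_total (2 * d) (R p \ R q).card with h5 | h5
    · have h6 := pair_bound (R p) (R q) (S p) (S q) d (hS1 p hp) (hS1 q hq) (hS2 p hp) (hS3 p hp) h5
      exact le_trans (Nat.mul_le_mul_left _ h6) h1
    · have h6 := pair_bound (R q) (R p) (S q) (S p) d (hS1 q hq) (hS1 p hp) (hS2 q hq) (hS3 q hq) (by omega)
      rw [inter_comm] at h6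
      exact le_trans (Nat.mul_le_mul_left _ h6) h3
  -- double counting
  set m := T2.card with hm
  set deg : Fin n → ℕ := fun c => (T2.filter fun p => c ∈ S p).card with hdeg
  have hsum1 : ∑ c, deg c = m * d := by
    have h1 : ∑ c, deg c = ∑ p ∈ T2, (S p).card := by
      simp only [hdeg, card_filter]
      rw [sum_comm]
      refine sum_congr rfl fun p _ => ?_
      rw [← card_filter]
      congr 1
      ext c
      simp
    rw [h1, sum_congr rfl hS2, sum_const, smul_eq_mul]
  have hsum2 : ∑ c, deg c ^ 2 = ∑ p ∈ T2, ∑ q ∈ T2, (S p ∩ S q).card := by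
    have h1 : ∀ c, deg c ^ 2 = ∑ p ∈ T2, ∑ q ∈ T2, (if c ∈ S p ∧ c ∈ S q then 1 else 0) := by
      intro c
      simp only [hdeg, sq, card_filter]
      rw [sum_mul_sum]
      refine sum_congr rfl fun p _ => sum_congr rfl fun q _ => ?_
      by_cases h1 : c ∈ S p <;> by_cases h2 : c ∈ S q <;> simp [h1, h2]
    simp only [h1]
    rw [sum_comm]
    refine sum_congr rfl fun p _ => ?_
    rw [sum_comm]
    refine sum_congr rfl fun q _ => ?_
    rw [← card_filter]
    congr 1
    ext c
    simp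
  have hCS : (m * d) ^ 2 ≤ n * ∑ p ∈ T2, ∑ q ∈ T2, (S p ∩ S q).card := by
    have h1 := sq_sum_le_card_mul_sum_sq (s := (univ : Finset (Fin n))) (f := deg)
    rw [card_univ, Fintype.card_fin, hsum1, hsum2] at h1
    exact h1
  have hpairs : K ^ 8 * d * ∑ p ∈ T2, ∑ q ∈ T2, (S p ∩ S q).card
      ≤ m * (K ^ 8 * d * d) + m * m * n ^ 2 := by
    rw [mul_sum]
    have h1 : ∀ p ∈ T2, K ^ 8 * d * ∑ q ∈ T2, (S p ∩ S q).card ≤ K ^ 8 * d * d + m * n ^ 2 := by
      intro p hp
      rw [mul_sum, ← insert_erase hp, sum_insert (notMem_erase _ _), inter_self, hS2 p hp]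
      apply Nat.add_le_add_left
      calc ∑ q ∈ T2.erase p, K ^ 8 * d * (S p ∩ S q).card
          ≤ ∑ _q ∈ T2.erase p, n ^ 2 := by
            refine sum_le_sum fun q hq => ?_
            have h2 := hpair p hp q (mem_of_mem_erase hq) (ne_of_mem_erase hq).symm
            calc K ^ 8 * d * (S p ∩ S q).card = K ^ 8 * (d * (S p ∩ S q).card) := by ring
              _ ≤ n ^ 2 := h2
        _ = (T2.erase p).card * n ^ 2 := by rw [sum_const, smul_eq_mul]
        _ ≤ m * n ^ 2 := Nat.mul_le_mul_right _ (card_le_card (erase_subset _ _))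
    calc ∑ p ∈ T2, K ^ 8 * d * ∑ q ∈ T2, (S p ∩ S q).card
        ≤ ∑ _p ∈ T2, (K ^ 8 * d * d + m * n ^ 2) := sum_le_sum h1
      _ = m * (K ^ 8 * d * d + m * n ^ 2) := by rw [sum_const, smul_eq_mul]
      _ = _ := by ring
  -- conclusion
  have hfinal : m * d ≤ 2 * n := by
    rcases Nat.eq_zero_or_pos m with h0 | hmpos
    · rw [h0]; simp
    have hstep : K ^ 8 * d * (m * d) ^ 2 ≤ n * (m * (K ^ 8 * d * d) + m * m * n ^ 2) := by
      calc K ^ 8 * d * (m * d) ^ 2 ≤ K ^ 8 * d * (n * ∑ p ∈ T2, ∑ q ∈ T2, (S p ∩ S q).card) :=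
            Nat.mul_le_mul_left _ hCS
        _ = n * (K ^ 8 * d * ∑ p ∈ T2, ∑ q ∈ T2, (S p ∩ S q).card) := by ring
        _ ≤ _ := Nat.mul_le_mul_left _ hpairs
    have hn3 : n ^ 3 ≤ (8 * K * d) ^ 3 := Nat.pow_le_pow_left (le_of_lt hd3) 3
    have hK5 : 1024 ≤ K ^ 5 := by
      calc 1024 ≤ 16 ^ 5 := by norm_num
        _ ≤ K ^ 5 := Nat.pow_le_pow_left hK 5
    have h512 : 2 * (512 * K ^ 3) ≤ K ^ 8 := by
      calc 2 * (512 * K ^ 3) = 1024 * K ^ 3 := by ring
        _ ≤ K ^ 5 * K ^ 3 := Nat.mul_le_mul_right _ hK5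
        _ = K ^ 8 := by ring
    have h2 : 2 * (m * m * n ^ 3) ≤ K ^ 8 * d * (m * d) ^ 2 := by
      calc 2 * (m * m * n ^ 3) ≤ 2 * (m * m * (8 * K * d) ^ 3) := by
            apply Nat.mul_le_mul_left
            exact Nat.mul_le_mul_left _ hn3
        _ = (2 * (512 * K ^ 3)) * (m * m * d ^ 3) := by ring
        _ ≤ K ^ 8 * (m * m * d ^ 3) := Nat.mul_le_mul_right _ h512
        _ = K ^ 8 * d * (m * d) ^ 2 := by ring
    have h3 : K ^ 8 * d * (m * d) ^ 2 ≤ 2 * (n * (m * (K ^ 8 * d * d))) := by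
      have h4 : n * (m * (K ^ 8 * d * d) + m * m * n ^ 2)
          = n * (m * (K ^ 8 * d * d)) + m * m * n ^ 3 := by ring
      omega
    have h4 : (K ^ 8 * d * d * m) * (m * d) ≤ (K ^ 8 * d * d * m) * (2 * n) := by
      calc (K ^ 8 * d * d * m) * (m * d) = K ^ 8 * d * (m * d) ^ 2 := by ring
        _ ≤ 2 * (n * (m * (K ^ 8 * d * d))) := h3
        _ = _ := by ring
    exact Nat.le_of_mul_le_mul_left h4 (by positivity)
  have hm2 : m < 16 * K := by
    have h1 : m * d < 16 * K * d := by nlinarith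
    exact Nat.lt_of_mul_lt_mul_right h1
  nlinarith

end Vale.Agent.Lib.P037
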