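import Vale.Agent.Lib.P037.Transfer

namespace Vale.Agent.Lib.P037

open Finset

/-- From the natural-number core to the real statement. -/
theorem removal_two_by_two (H : Fin 2 → Fin 2 → Bool) :
    ∃ (c : ℝ) (C : ℕ), 0 < c ∧ 0 < C ∧ ∀ n : ℕ, 1 ≤ n → ∀ ε : ℝ, 0 < ε → ε < 1 →
      ∀ A : Fin n → Fin n → Bool, FarFromFree H ε A →
        c * ε ^ C * (n : ℝ) ^ (2 * 2) ≤ (orderedCopies H A : ℝ) := by
  refine ⟨(1 / 26) ^ 74, 74, by positivity, by norm_num, ?_⟩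
  intro n hn ε hε0 hε1 A hfar
  by_contra hcon
  push Not at hcon
  have hn0 : (0 : ℝ) < n := by exact_mod_cast hn
  set K : ℕ := ⌈25 / ε⌉₊ with hK
  have hK1 : 25 / ε ≤ (K : ℝ) := Nat.le_ceil _
  have hK2 : (K : ℝ) < 25 / ε + 1 := Nat.ceil_lt_add_one (by positivity)
  have h25 : (25 : ℝ) < 25 / ε := by
    rw [lt_div_iff₀ hε0]
    nlinarith
  have hK16 : 16 ≤ K := by
    have : (16 : ℝ) ≤ (K : ℝ) := by linarith
    exact_mod_cast this
  have hKε : (25 : ℝ) ≤ K * ε := by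
    rw [div_le_iff₀ hε0] at hK1
    exact hK1
  have hKε2 : (K : ℝ) * ε ≤ 26 := by
    have h1 : (K : ℝ) * ε ≤ (25 / ε + 1) * ε :=
      mul_le_mul_of_nonneg_right (le_of_lt hK2) (le_of_lt hε0)
    have h2 : (25 / ε + 1) * ε = 25 + ε := by
      field_simp
    rw [h2] at h1
    linarith
  have hcore : K ^ 74 * orderedCopies H A ≤ n ^ 4 := by
    have h1 : ((K : ℝ) * ε / 26) ^ 74 ≤ 1 := by
      apply pow_le_one₀
      · positivity
      · rw [div_le_one (by norm_num)]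
        exact hKε2
    have h2 : ((K : ℝ)) ^ 74 * (orderedCopies H A : ℝ) ≤ (n : ℝ) ^ 4 := by
      have h3 : (orderedCopies H A : ℝ) ≤ (1 / 26) ^ 74 * ε ^ 74 * (n : ℝ) ^ (2 * 2) := le_of_lt hcon
      have h4 : (0 : ℝ) ≤ (K : ℝ) ^ 74 := by positivity
      calc (K : ℝ) ^ 74 * (orderedCopies H A : ℝ)
          ≤ (K : ℝ) ^ 74 * ((1 / 26) ^ 74 * ε ^ 74 * (n : ℝ) ^ (2 * 2)) :=
            mul_le_mul_of_nonneg_left h3 h4
        _ = ((K : ℝ) * ε / 26) ^ 74 * (n : ℝ) ^ 4 := by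
            ring
        _ ≤ 1 * (n : ℝ) ^ 4 := mul_le_mul_of_nonneg_right h1 (by positivity)
        _ = (n : ℝ) ^ 4 := one_mul _
    exact_mod_cast h2
  obtain ⟨B, hB1, hB2⟩ := coreAt_all H A K hK16 hcore
  have h3 := hfar B hB1
  have h4 : (K : ℝ) * (entryDist A B : ℝ) ≤ 24 * (n : ℝ) ^ 2 := by exact_mod_cast hB2
  have h5 : (K : ℝ) * (ε * (n : ℝ) ^ 2) ≤ (K : ℝ) * (entryDist A B : ℝ) :=
    mul_le_mul_of_nonneg_left h3 (by positivity)
  have h6 : (0 : ℝ) < (n : ℝ) ^ 2 := by positivity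
  nlinarith

end Vale.Agent.Lib.P037
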