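import Vale.Agent.Lib.P037.CoreGI

namespace Vale.Agent.Lib.P037

open Finset

variable {n : ℕ}

lemma sum_symm (f : Fin n → Fin n → ℕ) (hf : ∀ a b, f a b = f b a) :
    ∑ r, ∑ z, f r z = ∑ r, f r r + 2 * ∑ r, ∑ z ∈ univ.filter (fun z => r < z), f r z := by
  have h1 : ∀ r, ∑ z, f r z = f r r + ∑ z ∈ univ.filter (fun z => r < z), f r z
      + ∑ z ∈ univ.filter (fun z => z < r), f r z := by
    intro r
    have h2 : (univ : Finset (Fin n)) = insert r (univ.filter (fun z => r < z) ∪ univ.filter (fun z => z < r)) := by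
      ext z
      simp only [mem_univ, mem_insert, mem_union, mem_filter, true_and, true_iff]
      rcases lt_trichotomy z r with h | h | h
      · exact Or.inr (Or.inr h)
      · exact Or.inl h
      · exact Or.inr (Or.inl h)
    conv_lhs => rw [h2]
    rw [sum_insert, sum_union]
    · ring
    · rw [disjoint_left]
      intro a ha hb
      exact lt_asymm (mem_filter.1 ha).2 (mem_filter.1 hb).2
    · simp
  have h3 : ∑ r, ∑ z ∈ univ.filter (fun z => z < r), f r z
      = ∑ r, ∑ z ∈ univ.filter (fun z => r < z), f r z := by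
    simp only [sum_filter]
    rw [sum_comm]
    refine sum_congr rfl fun r _ => sum_congr rfl fun z _ => ?_
    by_cases h : r < z
    · simp only [h, if_true]
      exact hf z r
    · simp [h]
  simp only [h1, sum_add_distrib]
  rw [h3]
  ring

lemma same_letter {ι : Type*} (E : Finset ι) (u : Fin n → ι → Prop) [∀ r e, Decidable (u r e)] :
    (∑ r, (E.filter fun e => u r e).card) ^ 2
      ≤ E.card * (∑ r, (E.filter fun e => u r e).card
        + 2 * ∑ r, ∑ z ∈ univ.filter (fun z => r < z), (E.filter fun e => u r e ∧ u z e).card) := by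
  set deg : ι → ℕ := fun e => (univ.filter fun r => u r e).card with hdeg
  have h1 : ∑ r, (E.filter fun e => u r e).card = ∑ e ∈ E, deg e := by
    simp only [hdeg, card_filter]
    rw [sum_comm]
  have h2 : ∑ e ∈ E, deg e ^ 2 = ∑ r, (E.filter fun e => u r e).card
        + 2 * ∑ r, ∑ z ∈ univ.filter (fun z => r < z), (E.filter fun e => u r e ∧ u z e).card := by
    have h3 : ∀ e, deg e ^ 2 = ∑ r, ∑ z, (if u r e ∧ u z e then 1 else 0) := by
      intro e
      simp only [hdeg, sq, card_filter]
      rw [sum_mul_sum]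
      refine sum_congr rfl fun p _ => sum_congr rfl fun q _ => ?_
      by_cases h1 : u p e <;> by_cases h2 : u q e <;> simp [h1, h2]
    simp only [h3]
    have h4 : ∀ e, ∑ r, ∑ z, (if u r e ∧ u z e then 1 else 0) =
        ∑ r, (if u r e ∧ u r e then 1 else 0)
          + 2 * ∑ r, ∑ z ∈ univ.filter (fun z => r < z), (if u r e ∧ u z e then 1 else 0) := by
      intro e
      apply sum_symm
      intro a b
      simp only [and_comm]
    simp only [h4, sum_add_distrib, ← mul_sum]
    congr 1
    · rw [sum_comm]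
      refine sum_congr rfl fun r _ => ?_
      rw [card_filter]
      refine sum_congr rfl fun e _ => ?_
      simp
    · congr 1
      rw [sum_comm]
      refine sum_congr rfl fun r _ => ?_
      rw [sum_comm]
      refine sum_congr rfl fun z _ => ?_
      rw [card_filter]
  rw [h1, ← h1, ← h2, h1]
  exact sq_sum_le_card_mul_sum_sq

lemma numeric_final (Q D N K : ℕ) (hK1 : 1 ≤ K) (hQ : Q ^ 2 ≤ 4 * n * D)
    (hD : D ^ 2 ≤ n ^ 2 * (D + 2 * N)) (hK2 : K ^ 2 ≤ n) (hN : K ^ 8 * N ≤ n ^ 4) :
    K * Q ≤ 24 * n ^ 2 := by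
  by_contra h0
  push Not at h0
  have hn : 0 < n := lt_of_lt_of_le (by positivity) hK2
  have h1 : (24 * n ^ 2) ^ 2 < (K * Q) ^ 2 := Nat.pow_lt_pow_left h0 (by norm_num)
  have h2 : 4 * n * (144 * n ^ 3) < 4 * n * (K ^ 2 * D) := by
    calc 4 * n * (144 * n ^ 3) = (24 * n ^ 2) ^ 2 := by ring
      _ < (K * Q) ^ 2 := h1
      _ = K ^ 2 * Q ^ 2 := by ring
      _ ≤ K ^ 2 * (4 * n * D) := Nat.mul_le_mul_left _ hQ
      _ = 4 * n * (K ^ 2 * D) := by ring
  have h3 : 144 * n ^ 3 < K ^ 2 * D := Nat.lt_of_mul_lt_mul_left h2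
  have h4 : n * (144 * n ^ 2) < n * D := by
    calc n * (144 * n ^ 2) = 144 * n ^ 3 := by ring
      _ < K ^ 2 * D := h3
      _ ≤ n * D := Nat.mul_le_mul_right _ hK2
  have h5 : 144 * n ^ 2 < D := Nat.lt_of_mul_lt_mul_left h4
  have h6 : 144 * D ^ 2 ≤ D ^ 2 + 288 * (n ^ 2 * N) := by
    have h7 : 144 * n ^ 2 * D ≤ D * D := Nat.mul_le_mul_right _ (le_of_lt h5)
    nlinarith
  have h8 : D ^ 2 ≤ 3 * (n ^ 2 * N) := by omega
  have h9 : (144 * n ^ 3) ^ 2 < (K ^ 2 * D) ^ 2 := Nat.pow_lt_pow_left h3 (by norm_num)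
  have h10 : K ^ 4 * N ≤ n ^ 4 := by
    refine le_trans (Nat.mul_le_mul_right _ ?_) hN
    exact Nat.pow_le_pow_right (by omega) (by norm_num)
  have h11 : (K ^ 2 * D) ^ 2 ≤ 3 * n ^ 6 := by
    calc (K ^ 2 * D) ^ 2 = K ^ 4 * D ^ 2 := by ring
      _ ≤ K ^ 4 * (3 * (n ^ 2 * N)) := Nat.mul_le_mul_left _ h8
      _ = 3 * n ^ 2 * (K ^ 4 * N) := by ring
      _ ≤ 3 * n ^ 2 * n ^ 4 := Nat.mul_le_mul_left _ h10
      _ = 3 * n ^ 6 := by ring
  have h12 : (144 * n ^ 3) ^ 2 = 20736 * n ^ 6 := by ring
  have h13 : 0 < n ^ 6 := pow_pos hn 6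
  omega

lemma card_le_n (x : Finset (Fin n)) : x.card ≤ n := by
  calc x.card ≤ (univ : Finset (Fin n)).card := card_le_card (subset_univ _)
    _ = n := by simp

lemma hK2_of (K N : ℕ) (hN : K ^ 8 * N ≤ n ^ 4) (hNpos : 0 < N) : K ^ 2 ≤ n := by
  have h1 : (K ^ 2) ^ 4 ≤ n ^ 4 := by
    calc (K ^ 2) ^ 4 = K ^ 8 := by ring
      _ ≤ K ^ 8 * N := Nat.le_mul_of_pos_right _ hNpos
      _ ≤ n ^ 4 := hN
  exact (Nat.pow_le_pow_iff_left (by norm_num)).1 h1

/-- Same-letter reduction for a row-wise final family. -/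
lemma same_letter_D (U : Finset (Fin n) → Fin n → Fin n → Prop) [∀ x c c', Decidable (U x c c')]
    (R : Fin n → Finset (Fin n)) :
    (∑ r, ((colPairs n).filter fun e => U (R r) e.1 e.2).card) ^ 2
      ≤ n ^ 2 * (∑ r, ((colPairs n).filter fun e => U (R r) e.1 e.2).card
        + 2 * ∑ r, ∑ z ∈ univ.filter (fun z => r < z), hcount U U (R r) (R z)) := by
  have h := same_letter (colPairs n) (fun r e => U (R r) e.1 e.2)
  exact le_trans h (Nat.mul_le_mul_right _ colPairs_card_le)

/-- Core for the constant column pattern. -/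
theorem core_T (R : Fin n → Finset (Fin n)) (K : ℕ) (hK : 16 ≤ K)
    (hN1 : K ^ 8 * ∑ r, ∑ z ∈ univ.filter (fun z => r < z), hcount UI UI (R r) (R z) ≤ n ^ 4) :
    ∃ X' : Fin n → Finset (Fin n),
      (∀ r r', r < r' → ∀ c c', c < c' → UI (X' r) c c' → UI (X' r') c c' → False) ∧
      K * ∑ r, (symmDiff (R r) (X' r)).card ≤ 24 * n ^ 2 := by
  classical
  rcases Nat.eq_zero_or_pos (∑ r, ∑ z ∈ univ.filter (fun z => r < z), hcount UI UI (R r) (R z))
    with hN0 | hNpos
  · exact core_zero UI UI R K hN0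
  have hK2 := hK2_of K _ hN1 hNpos
  have hthr : ∀ r, ∃ t : ℕ, ((R r).filter fun x => x.val < t).card + ((R r)ᶜ.filter fun x => t ≤ x.val).card
      = (symmDiff (R r) (univ.filter fun c : Fin n => t ≤ c.val)).card ∧
      (symmDiff (R r) (univ.filter fun c : Fin n => t ≤ c.val)).card ^ 2
        ≤ 4 * ((colPairs n).filter fun e => UI (R r) e.1 e.2).card := by
    intro r
    obtain ⟨t, ht⟩ := stair_threshold (R r) (R r)ᶜ disjoint_compl_right
    have h1 : invCount (R r) (R r)ᶜ = ((colPairs n).filter fun e => UI (R r) e.1 e.2).card := by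
      unfold invCount colPairs
      congr 1
      ext e
      simp only [mem_filter, mem_product, mem_compl, mem_univ, true_and]
      simp only [UI]
      tauto
    have h2 : ((R r).filter fun x => x.val < t).card + ((R r)ᶜ.filter fun x => t ≤ x.val).card
        = (symmDiff (R r) (univ.filter fun c : Fin n => t ≤ c.val)).card := by
      rw [← card_union_of_disjoint]
      · congr 1
        ext c
        simp only [mem_union, mem_filter, mem_compl, mem_symmDiff, mem_univ, true_and, not_le]
        tauto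
      · rw [disjoint_left]
        intro a ha hb
        exact (mem_compl.1 (mem_filter.1 hb).1) (mem_filter.1 ha).1
    refine ⟨t, h2, ?_⟩
    rw [← h2, ← h1]
    exact ht
  choose t ht1 ht2 using hthr
  set X' : Fin n → Finset (Fin n) := fun r => univ.filter fun c : Fin n => t r ≤ c.val with hX'
  refine ⟨X', ?_, ?_⟩
  · intro r r' _ c c' hcc' h1 _
    obtain ⟨h2, h3⟩ := h1
    apply h3
    have h4 := (mem_filter.1 h2).2
    refine mem_filter.2 ⟨mem_univ _, ?_⟩
    rw [Fin.lt_def] at hcc'
    omega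
  · set D := ∑ r, ((colPairs n).filter fun e => UI (R r) e.1 e.2).card with hD
    have hQ : (∑ r, (symmDiff (R r) (X' r)).card) ^ 2 ≤ 4 * n * D := by
      have h1 := sq_sum_le_card_mul_sum_sq (s := (univ : Finset (Fin n)))
        (f := fun r => (symmDiff (R r) (X' r)).card)
      rw [card_univ, Fintype.card_fin] at h1
      refine le_trans h1 ?_
      calc n * ∑ r, (symmDiff (R r) (X' r)).card ^ 2
          ≤ n * ∑ r, 4 * ((colPairs n).filter fun e => UI (R r) e.1 e.2).card :=
            Nat.mul_le_mul_left _ (sum_le_sum fun r _ => ht2 r)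
        _ = 4 * n * D := by rw [← mul_sum]; ring
    have hDD := same_letter_D UI R
    exact numeric_final _ D _ K (by omega) hQ hDD hK2 hN1

/-- Core for the all-ones pattern. -/
theorem core_M (R : Fin n → Finset (Fin n)) (K : ℕ) (hK : 16 ≤ K)
    (hN1 : K ^ 8 * ∑ r, ∑ z ∈ univ.filter (fun z => r < z), hcount UG UG (R r) (R z) ≤ n ^ 4) :
    ∃ X' : Fin n → Finset (Fin n),
      (∀ r r', r < r' → ∀ c c', c < c' → UG (X' r) c c' → UG (X' r') c c' → False) ∧
      K * ∑ r, (symmDiff (R r) (X' r)).card ≤ 24 * n ^ 2 := by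
  classical
  rcases Nat.eq_zero_or_pos (∑ r, ∑ z ∈ univ.filter (fun z => r < z), hcount UG UG (R r) (R z))
    with hN0 | hNpos
  · exact core_zero UG UG R K hN0
  have hK2 := hK2_of K _ hN1 hNpos
  have hn : 0 < n := lt_of_lt_of_le (by positivity) hK2
  refine ⟨fun _ => ∅, ?_, ?_⟩
  · intro r r' _ c c' _ h1 _
    simp [UG] at h1
  · set D := ∑ r, ((colPairs n).filter fun e => UG (R r) e.1 e.2).card with hD
    set Q := ∑ r, (symmDiff (R r) (∅ : Finset (Fin n))).card with hQdef
    have hcardsd : ∀ r, (symmDiff (R r) (∅ : Finset (Fin n))).card = (R r).card := by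
      intro r
      congr 1
      ext c
      simp [mem_symmDiff]
    have hQ1 : Q ^ 2 ≤ n * (Q + 2 * D) := by
      have h1 := sq_sum_le_card_mul_sum_sq (s := (univ : Finset (Fin n)))
        (f := fun r => (symmDiff (R r) (∅ : Finset (Fin n))).card)
      rw [card_univ, Fintype.card_fin] at h1
      refine le_trans h1 (Nat.mul_le_mul_left _ ?_)
      have h2 : ∀ r, (symmDiff (R r) (∅ : Finset (Fin n))).card ^ 2
          = (symmDiff (R r) (∅ : Finset (Fin n))).card
            + 2 * ((colPairs n).filter fun e => UG (R r) e.1 e.2).card := by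
        intro r
        rw [hcardsd]
        have h3 := sum_symm (fun a b : Fin n => if a ∈ R r ∧ b ∈ R r then 1 else 0)
          (fun a b => by simp only [and_comm])
        have h4 : ∑ a : Fin n, ∑ b : Fin n, (if a ∈ R r ∧ b ∈ R r then 1 else 0) = (R r).card ^ 2 := by
          rw [sq, card_eq_sum_ones, sum_mul_sum]
          rw [← sum_filter_add_sum_filter_not univ (fun a => a ∈ R r)]
          have h5 : ∑ a ∈ univ.filter (fun a => ¬ a ∈ R r), ∑ b : Fin n, (if a ∈ R r ∧ b ∈ R r then 1 else 0) = 0 := by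
            refine sum_eq_zero fun a ha => sum_eq_zero fun b _ => ?_
            simp [(mem_filter.1 ha).2]
          rw [h5, add_zero, filter_mem_eq_inter, univ_inter]
          refine sum_congr rfl fun a ha => ?_
          rw [← sum_filter_add_sum_filter_not univ (fun b => b ∈ R r)]
          have h6 : ∑ b ∈ univ.filter (fun b => ¬ b ∈ R r), (if a ∈ R r ∧ b ∈ R r then 1 else 0) = 0 := by
            refine sum_eq_zero fun b hb => ?_
            simp [(mem_filter.1 hb).2]
          rw [h6, add_zero, filter_mem_eq_inter, univ_inter]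
          refine sum_congr rfl fun b hb => ?_
          simp [ha, hb]
        have h7 : ∑ a : Fin n, (if a ∈ R r ∧ a ∈ R r then 1 else 0) = (R r).card := by
          simp
        have h8 : ∑ a : Fin n, ∑ b ∈ univ.filter (fun z => a < z), (if a ∈ R r ∧ b ∈ R r then 1 else 0)
            = ((colPairs n).filter fun e => UG (R r) e.1 e.2).card := by
          rw [card_filter, colPairs, sum_filter, ← univ_product_univ, sum_product]
          refine sum_congr rfl fun a _ => ?_
          rw [sum_filter]
          refine sum_congr rfl fun b _ => ?_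
          by_cases h : a < b
          · simp only [h, if_true, UG]
          · simp [h]
        rw [h4, h7, h8] at h3
        exact h3
      have h3 : ∑ r, (symmDiff (R r) (∅ : Finset (Fin n))).card ^ 2 = Q + 2 * D := by
        rw [sum_congr rfl fun r _ => h2 r, sum_add_distrib, ← mul_sum]
      exact le_of_eq h3
    have hDD := same_letter_D UG R
    by_cases hcase : K * Q ≤ 24 * n ^ 2
    · exact hcase
    · push Not at hcase
      have hKn : K ≤ n := by nlinarith
      have h1 : 24 * n < Q := by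
        have h2 : n * (24 * n) < n * Q := by
          calc n * (24 * n) = 24 * n ^ 2 := by ring
            _ < K * Q := hcase
            _ ≤ n * Q := Nat.mul_le_mul_right _ hKn
        exact Nat.lt_of_mul_lt_mul_left h2
      have hQ : Q ^ 2 ≤ 4 * n * D := by
        have h2 : 24 * (n * Q) ≤ Q * Q := by
          calc 24 * (n * Q) = (24 * n) * Q := by ring
            _ ≤ Q * Q := Nat.mul_le_mul_right Q (le_of_lt h1)
        nlinarith
      exact numeric_final Q D _ K (by omega) hQ hDD hK2 hN1

end Vale.Agent.Lib.P037
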