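import Mathlib

namespace Vale.Agent.Lib.P037

open Finset

variable {n : ℕ}

/-- Number of inversions between two sets of columns. -/
def invCount (A B : Finset (Fin n)) : ℕ := ((A ×ˢ B).filter fun p => p.1 < p.2).card

lemma exists_prefix_card (S : Finset (Fin n)) (k : ℕ) (hk : k ≤ S.card) :
    ∃ t : ℕ, (S.filter fun x => x.val < t).card = k := by
  classical
  have hex : ∃ t : ℕ, k ≤ (S.filter fun x => x.val < t).card := by
    refine ⟨n, ?_⟩
    rw [filter_true_of_mem (fun x _ => x.isLt)]
    exact hk
  obtain ⟨t, ht⟩ : ∃ t, t = Nat.find hex := ⟨_, rfl⟩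
  have h1 : k ≤ (S.filter fun x => x.val < t).card := by
    rw [ht]; exact Nat.find_spec hex
  refine ⟨t, le_antisymm ?_ h1⟩
  rcases Nat.eq_zero_or_pos t with h0 | hpos
  · rw [h0]
    simp
  · obtain ⟨t', rfl⟩ : ∃ t', t = t' + 1 := ⟨t - 1, by omega⟩
    have h2 : ¬ k ≤ (S.filter fun x => x.val < t').card :=
      Nat.find_min hex (by omega)
    have h3 : S.filter (fun x => x.val < t' + 1)
        ⊆ S.filter (fun x => x.val < t') ∪ S.filter (fun x => x.val = t') := by
      intro x hx
      rw [mem_filter] at hx
      rw [mem_union, mem_filter, mem_filter]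
      by_cases h : x.val < t'
      · exact Or.inl ⟨hx.1, h⟩
      · exact Or.inr ⟨hx.1, by omega⟩
    have h4 : (S.filter fun x => x.val = t').card ≤ 1 := by
      rw [card_le_one]
      intro a ha b hb
      rw [mem_filter] at ha hb
      exact Fin.ext (by omega)
    have h5 := card_le_card h3
    have h6 := card_union_le (S.filter fun x => x.val < t') (S.filter fun x => x.val = t')
    omega

/-- Balanced threshold for a disjoint pair. -/
lemma exists_threshold (A B : Finset (Fin n)) (hd : Disjoint A B) :
    ∃ t : ℕ, (A.filter fun x => x.val < t).card = (B.filter fun x => t ≤ x.val).card := by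
  classical
  obtain ⟨t, ht⟩ := exists_prefix_card (A ∪ B) B.card (by
    rw [card_union_of_disjoint hd]; omega)
  refine ⟨t, ?_⟩
  have h1 : ((A ∪ B).filter fun x => x.val < t).card
      = (A.filter fun x => x.val < t).card + (B.filter fun x => x.val < t).card := by
    rw [filter_union, card_union_of_disjoint]
    exact disjoint_filter_filter hd
  have h2 : (B.filter fun x => x.val < t).card + (B.filter fun x => ¬ x.val < t).card = B.card :=
    card_filter_add_card_filter_not _
  have h3 : (B.filter fun x => ¬ x.val < t) = B.filter fun x => t ≤ x.val := by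
    ext x; simp
  rw [h3] at h2
  omega

lemma mul_le_invCount (A B : Finset (Fin n)) (t : ℕ) :
    (A.filter fun x => x.val < t).card * (B.filter fun x => t ≤ x.val).card ≤ invCount A B := by
  rw [← card_product]
  refine card_le_card fun p hp => ?_
  rw [mem_product, mem_filter, mem_filter] at hp
  rw [mem_filter, mem_product]
  refine ⟨⟨hp.1.1, hp.2.1⟩, ?_⟩
  rw [Fin.lt_def]
  omega

/-- Threshold form of the staircase lemma. -/
lemma stair_threshold (A B : Finset (Fin n)) (hd : Disjoint A B) :
    ∃ t : ℕ, ((A.filter fun x => x.val < t).card + (B.filter fun x => t ≤ x.val).card) ^ 2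
      ≤ 4 * invCount A B := by
  obtain ⟨t, ht⟩ := exists_threshold A B hd
  refine ⟨t, ?_⟩
  have h := mul_le_invCount A B t
  rw [ht] at h ⊢
  nlinarith

/-- Cover form of the staircase lemma. -/
lemma stair_cover (A B : Finset (Fin n)) (hd : Disjoint A B) :
    ∃ C : Finset (Fin n), C.card ^ 2 ≤ 4 * invCount A B ∧
      ∀ a ∈ A, ∀ b ∈ B, a ∉ C → b ∉ C → ¬ a < b := by
  classical
  obtain ⟨t, ht⟩ := stair_threshold A B hd
  refine ⟨(A.filter fun x => x.val < t) ∪ (B.filter fun x => t ≤ x.val), ?_, ?_⟩
  · refine le_trans ?_ ht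
    exact Nat.pow_le_pow_left (card_union_le _ _) 2
  · intro a ha b hb hac hbc hab
    rw [mem_union, not_or, mem_filter, mem_filter] at hac hbc
    have h1 : ¬ a.val < t := fun h => hac.1 ⟨ha, h⟩
    have h2 : ¬ t ≤ b.val := fun h => hbc.2 ⟨hb, h⟩
    rw [Fin.lt_def] at hab
    omega

end Vale.Agent.Lib.P037
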