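import Vale.Agent.Lib.P037.Defs
import Vale.Agent.Lib.P037.SameLetter

namespace Vale.Agent.Lib.P037

open Finset

/-- Natural-number form of the removal statement at size `n`. -/
def CoreAt (n : ℕ) (H : Fin 2 → Fin 2 → Bool) (C : ℕ) : Prop :=
  ∀ (A : Fin n → Fin n → Bool) (K : ℕ), 16 ≤ K → K ^ C * orderedCopies H A ≤ n ^ 4 →
    ∃ B : Fin n → Fin n → Bool, orderedCopies H B = 0 ∧ K * entryDist A B ≤ 24 * n ^ 2

variable {n : ℕ}

/-- The row of a matrix as a set of columns. -/
def rowSet (A : Fin n → Fin n → Bool) (r : Fin n) : Finset (Fin n) :=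
  univ.filter fun c => A r c = true

lemma decide_mem_rowSet (A : Fin n → Fin n → Bool) (r c : Fin n) :
    decide (c ∈ rowSet A r) = A r c := by
  by_cases h : A r c = true
  · have : c ∈ rowSet A r := mem_filter.2 ⟨mem_univ _, h⟩
    simp [this, h]
  · have : c ∉ rowSet A r := fun h2 => h (mem_filter.1 h2).2
    simp only [this, decide_false]
    cases h3 : A r c
    · rfl
    · exact absurd h3 h

lemma strictMono_pair (a b : Fin n) (h : a < b) : StrictMono ![a, b] := by
  intro i j hij
  fin_cases i <;> fin_cases j <;> simp_all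

lemma pairs_le_copies (H : Fin 2 → Fin 2 → Bool) (U V : Finset (Fin n) → Fin n → Fin n → Prop)
    [∀ x c c', Decidable (U x c c')] [∀ x c c', Decidable (V x c c')]
    (hU : ∀ x c c', U x c c' ↔ (decide (c ∈ x) = H 0 0 ∧ decide (c' ∈ x) = H 0 1))
    (hV : ∀ x c c', V x c c' ↔ (decide (c ∈ x) = H 1 0 ∧ decide (c' ∈ x) = H 1 1))
    (A : Fin n → Fin n → Bool) :
    ∑ r, ∑ z ∈ univ.filter (fun z => r < z), hcount U V (rowSet A r) (rowSet A z)
      ≤ orderedCopies H A := by
  classical
  set Sig : Finset (Σ _r : Fin n, Σ _z : Fin n, Fin n × Fin n) :=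
    univ.sigma fun r => (univ.filter fun z => r < z).sigma fun z =>
      (colPairs n).filter fun e => U (rowSet A r) e.1 e.2 ∧ V (rowSet A z) e.1 e.2 with hSig
  have h1 : Sig.card = ∑ r, ∑ z ∈ univ.filter (fun z => r < z), hcount U V (rowSet A r) (rowSet A z) := by
    rw [hSig, card_sigma]
    refine sum_congr rfl fun r _ => ?_
    rw [card_sigma]
    rfl
  rw [← h1]
  unfold orderedCopies
  refine card_le_card_of_injOn (fun s => (![s.1, s.2.1], ![s.2.2.1, s.2.2.2])) ?_ ?_
  · intro s hs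
    obtain ⟨r, z, e⟩ := s
    simp only [hSig, coe_sigma, Set.mem_sigma_iff, mem_coe, mem_univ, true_and, mem_filter] at hs
    obtain ⟨h2, h3, h4, h5⟩ := hs
    have h6 : e.1 < e.2 := (mem_filter.1 h3).2
    rw [hU] at h4
    rw [hV] at h5
    simp only [decide_mem_rowSet] at h4 h5
    simp only [coe_filter, mem_univ, true_and, Set.mem_ofPred_eq]
    refine ⟨strictMono_pair _ _ h2, strictMono_pair _ _ h6, ?_⟩
    intro i j
    fin_cases i <;> fin_cases j <;> simp_all
  · rintro ⟨r, z, e⟩ _ ⟨r', z', e'⟩ _ h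
    simp only [Prod.mk.injEq] at h
    obtain ⟨h2, h3⟩ := h
    have h4 := congrFun h2 0
    have h5 := congrFun h2 1
    have h6 := congrFun h3 0
    have h7 := congrFun h3 1
    simp at h4 h5 h6 h7
    subst h4 h5
    have : e = e' := Prod.ext h6 h7
    subst this
    rfl

lemma copies_zero_of (H : Fin 2 → Fin 2 → Bool) (U V : Finset (Fin n) → Fin n → Fin n → Prop)
    (hU : ∀ x c c', U x c c' ↔ (decide (c ∈ x) = H 0 0 ∧ decide (c' ∈ x) = H 0 1))
    (hV : ∀ x c c', V x c c' ↔ (decide (c ∈ x) = H 1 0 ∧ decide (c' ∈ x) = H 1 1))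
    (X : Fin n → Finset (Fin n))
    (hfree : ∀ r r', r < r' → ∀ c c', c < c' → U (X r) c c' → V (X r') c c' → False) :
    orderedCopies H (fun r c => decide (c ∈ X r)) = 0 := by
  unfold orderedCopies
  rw [card_eq_zero, filter_eq_empty_iff]
  rintro ⟨r, c⟩ _ ⟨h1, h2, h3⟩
  have h01 : (0 : Fin 2) < 1 := by decide
  refine hfree (r 0) (r 1) (h1 h01) (c 0) (c 1) (h2 h01) ?_ ?_
  · rw [hU]
    exact ⟨h3 0 0, h3 0 1⟩
  · rw [hV]
    exact ⟨h3 1 0, h3 1 1⟩

lemma entryDist_le_sum (A : Fin n → Fin n → Bool) (X : Fin n → Finset (Fin n)) :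
    entryDist A (fun r c => decide (c ∈ X r)) ≤ ∑ r, (symmDiff (rowSet A r) (X r)).card := by
  classical
  unfold entryDist
  rw [← card_sigma]
  refine card_le_card_of_injOn (fun p => ⟨p.1, p.2⟩) ?_ ?_
  · rintro ⟨r, c⟩ h
    simp only [coe_filter, mem_univ, true_and, Set.mem_ofPred_eq] at h
    simp only [coe_sigma, Set.mem_sigma_iff, mem_coe, mem_univ, true_and, mem_symmDiff]
    have h2 : ¬ (decide (c ∈ rowSet A r) = decide (c ∈ X r)) := by
      rw [decide_mem_rowSet]
      exact h
    by_cases h3 : c ∈ rowSet A r <;> by_cases h4 : c ∈ X r <;> simp_all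
  · rintro ⟨r, c⟩ _ ⟨r', c'⟩ _ h
    simp only [Sigma.mk.injEq, heq_eq_eq] at h
    exact Prod.ext h.1 h.2

lemma coreAt_of_sets (H : Fin 2 → Fin 2 → Bool) (U V : Finset (Fin n) → Fin n → Fin n → Prop)
    [∀ x c c', Decidable (U x c c')] [∀ x c c', Decidable (V x c c')]
    (hU : ∀ x c c', U x c c' ↔ (decide (c ∈ x) = H 0 0 ∧ decide (c' ∈ x) = H 0 1))
    (hV : ∀ x c c', V x c c' ↔ (decide (c ∈ x) = H 1 0 ∧ decide (c' ∈ x) = H 1 1))
    (C : ℕ)
    (hcore : ∀ (R : Fin n → Finset (Fin n)) (K : ℕ), 16 ≤ K →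
      K ^ C * ∑ r, ∑ z ∈ univ.filter (fun z => r < z), hcount U V (R r) (R z) ≤ n ^ 4 →
      ∃ X' : Fin n → Finset (Fin n),
        (∀ r r', r < r' → ∀ c c', c < c' → U (X' r) c c' → V (X' r') c c' → False) ∧
        K * ∑ r, (symmDiff (R r) (X' r)).card ≤ 24 * n ^ 2) :
    CoreAt n H C := by
  intro A K hK hA
  have h1 := pairs_le_copies H U V hU hV A
  obtain ⟨X, hX1, hX2⟩ := hcore (rowSet A) K hK (le_trans (Nat.mul_le_mul_left _ h1) hA)
  refine ⟨fun r c => decide (c ∈ X r), copies_zero_of H U V hU hV X hX1, ?_⟩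
  exact le_trans (Nat.mul_le_mul_left _ (entryDist_le_sum A X)) hX2

lemma coreAt_mono {H : Fin 2 → Fin 2 → Bool} {C C' : ℕ} (hC : C ≤ C') (h : CoreAt n H C) :
    CoreAt n H C' := by
  intro A K hK hA
  refine h A K hK (le_trans (Nat.mul_le_mul_right _ ?_) hA)
  exact Nat.pow_le_pow_right (by omega) hC

lemma coreAt_transfer (σH : (Fin 2 → Fin 2 → Bool) → (Fin 2 → Fin 2 → Bool))
    (σA : (Fin n → Fin n → Bool) → (Fin n → Fin n → Bool))
    (hinvH : ∀ H, σH (σH H) = H) (hinvA : ∀ A, σA (σA A) = A)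
    (hcop : ∀ H A, orderedCopies (σH H) (σA A) ≤ orderedCopies H A)
    (hd : ∀ A B, entryDist (σA A) (σA B) ≤ entryDist A B)
    {H : Fin 2 → Fin 2 → Bool} {C : ℕ} (h : CoreAt n H C) : CoreAt n (σH H) C := by
  intro A K hK hA
  have h1 : orderedCopies H (σA A) ≤ orderedCopies (σH H) A := by
    have h2 := hcop (σH H) A
    rw [hinvH] at h2
    exact h2
  obtain ⟨B, hB1, hB2⟩ := h (σA A) K hK (le_trans (Nat.mul_le_mul_left _ h1) hA)
  refine ⟨σA B, ?_, ?_⟩
  · have h2 := hcop H B
    rw [hB1] at h2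
    omega
  · have h2 := hd (σA A) B
    rw [hinvA] at h2
    exact le_trans (Nat.mul_le_mul_left _ h2) hB2

/-- Row reversal. -/
def rR {k : ℕ} (A : Fin k → Fin k → Bool) : Fin k → Fin k → Bool := fun r c => A (Fin.rev r) c
/-- Column reversal. -/
def cR {k : ℕ} (A : Fin k → Fin k → Bool) : Fin k → Fin k → Bool := fun r c => A r (Fin.rev c)
/-- Complement. -/
def cpl {k : ℕ} (A : Fin k → Fin k → Bool) : Fin k → Fin k → Bool := fun r c => ! A r c
/-- Transpose. -/
def tr {k : ℕ} (A : Fin k → Fin k → Bool) : Fin k → Fin k → Bool := fun r c => A c r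

lemma strictMono_rev {k : ℕ} {r : Fin k → Fin n} (h : StrictMono r) :
    StrictMono (fun i => Fin.rev (r (Fin.rev i))) := by
  intro a b hab
  simp only
  rw [Fin.rev_lt_rev]
  exact h (Fin.rev_lt_rev.2 hab)

lemma coreAt_rR {H : Fin 2 → Fin 2 → Bool} {C : ℕ} (h : CoreAt n H C) : CoreAt n (rR H) C := by
  refine coreAt_transfer rR rR ?_ ?_ ?_ ?_ h
  · intro H; funext r c; simp [rR]
  · intro H; funext r c; simp [rR]
  · intro H A
    unfold orderedCopies
    refine card_le_card_of_injOn (fun p => (fun i => Fin.rev (p.1 (Fin.rev i)), p.2)) ?_ ?_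
    · rintro ⟨r, c⟩ hp
      simp only [coe_filter, mem_univ, true_and, Set.mem_ofPred_eq] at hp ⊢
      obtain ⟨h1, h2, h3⟩ := hp
      refine ⟨strictMono_rev h1, h2, ?_⟩
      intro i j
      have := h3 (Fin.rev i) j
      simpa [rR] using this
    · rintro ⟨r, c⟩ _ ⟨r', c'⟩ _ h
      simp only [Prod.mk.injEq] at h
      obtain ⟨h1, h2⟩ := h
      subst h2
      have : r = r' := by
        funext i
        have := congrFun h1 (Fin.rev i)
        simpa using this
      subst this
      rfl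
  · intro A B
    unfold entryDist
    refine card_le_card_of_injOn (fun p => (Fin.rev p.1, p.2)) ?_ ?_
    · rintro ⟨r, c⟩ hp
      have h1 := (mem_filter.1 (mem_coe.1 hp)).2
      exact mem_coe.2 (mem_filter.2 ⟨mem_univ _, h1⟩)
    · rintro ⟨r, c⟩ _ ⟨r', c'⟩ _ h
      simp only [Prod.mk.injEq, Fin.rev_inj] at h
      exact Prod.ext h.1 h.2

lemma coreAt_cR {H : Fin 2 → Fin 2 → Bool} {C : ℕ} (h : CoreAt n H C) : CoreAt n (cR H) C := by
  refine coreAt_transfer cR cR ?_ ?_ ?_ ?_ h
  · intro H; funext r c; simp [cR]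
  · intro H; funext r c; simp [cR]
  · intro H A
    unfold orderedCopies
    refine card_le_card_of_injOn (fun p => (p.1, fun i => Fin.rev (p.2 (Fin.rev i)))) ?_ ?_
    · rintro ⟨r, c⟩ hp
      simp only [coe_filter, mem_univ, true_and, Set.mem_ofPred_eq] at hp ⊢
      obtain ⟨h1, h2, h3⟩ := hp
      refine ⟨h1, strictMono_rev h2, ?_⟩
      intro i j
      have := h3 i (Fin.rev j)
      simpa [cR] using this
    · rintro ⟨r, c⟩ _ ⟨r', c'⟩ _ h
      simp only [Prod.mk.injEq] at h
      obtain ⟨h2, h1⟩ := h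
      subst h2
      have : c = c' := by
        funext i
        have := congrFun h1 (Fin.rev i)
        simpa using this
      subst this
      rfl
  · intro A B
    unfold entryDist
    refine card_le_card_of_injOn (fun p => (p.1, Fin.rev p.2)) ?_ ?_
    · rintro ⟨r, c⟩ hp
      have h1 := (mem_filter.1 (mem_coe.1 hp)).2
      exact mem_coe.2 (mem_filter.2 ⟨mem_univ _, h1⟩)
    · rintro ⟨r, c⟩ _ ⟨r', c'⟩ _ h
      simp only [Prod.mk.injEq, Fin.rev_inj] at h
      exact Prod.ext h.1 h.2

lemma coreAt_cpl {H : Fin 2 → Fin 2 → Bool} {C : ℕ} (h : CoreAt n H C) : CoreAt n (cpl H) C := by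
  refine coreAt_transfer cpl cpl ?_ ?_ ?_ ?_ h
  · intro H; funext r c; simp [cpl]
  · intro H; funext r c; simp [cpl]
  · intro H A
    unfold orderedCopies
    refine card_le_card ?_
    rintro ⟨r, c⟩ hp
    obtain ⟨h1, h2, h3⟩ := (mem_filter.1 hp).2
    refine mem_filter.2 ⟨mem_univ _, h1, h2, fun i j => ?_⟩
    have h4 := h3 i j
    simpa [cpl] using h4
  · intro A B
    unfold entryDist
    refine card_le_card ?_
    rintro ⟨r, c⟩ hp
    have h1 := (mem_filter.1 hp).2
    refine mem_filter.2 ⟨mem_univ _, fun h2 => h1 ?_⟩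
    show (! A r c) = (! B r c)
    have h3 : A r c = B r c := h2
    rw [h3]

lemma coreAt_tr {H : Fin 2 → Fin 2 → Bool} {C : ℕ} (h : CoreAt n H C) : CoreAt n (tr H) C := by
  refine coreAt_transfer tr tr ?_ ?_ ?_ ?_ h
  · intro H; funext r c; rfl
  · intro H; funext r c; rfl
  · intro H A
    unfold orderedCopies
    refine card_le_card_of_injOn (fun p => (p.2, p.1)) ?_ ?_
    · rintro ⟨r, c⟩ hp
      obtain ⟨h1, h2, h3⟩ := (mem_filter.1 (mem_coe.1 hp)).2
      exact mem_coe.2 (mem_filter.2 ⟨mem_univ _, h2, h1, fun i j => h3 j i⟩)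
    · rintro ⟨r, c⟩ _ ⟨r', c'⟩ _ h
      simp only [Prod.mk.injEq] at h
      exact Prod.ext h.2 h.1
  · intro A B
    unfold entryDist
    refine card_le_card_of_injOn (fun p => (p.2, p.1)) ?_ ?_
    · rintro ⟨r, c⟩ hp
      have h1 := (mem_filter.1 (mem_coe.1 hp)).2
      exact mem_coe.2 (mem_filter.2 ⟨mem_univ _, h1⟩)
    · rintro ⟨r, c⟩ _ ⟨r', c'⟩ _ h
      simp only [Prod.mk.injEq] at h
      exact Prod.ext h.2 h.1

/-- Identity pattern. -/
lemma coreAt_I : CoreAt n ![![true, false], ![false, true]] 74 := by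
  refine coreAt_of_sets _ UI VI ?_ ?_ 74 (fun R K hK h => core_I R K hK h)
  · intro x c c'
    simp [UI]
  · intro x c c'
    simp [VI]

/-- Corner pattern. -/
lemma coreAt_G : CoreAt n ![![true, true], ![true, false]] 74 := by
  refine coreAt_of_sets _ UG VG ?_ ?_ 74 (fun R K hK h => core_G R K hK h)
  · intro x c c'
    simp [UG]
  · intro x c c'
    simp [VG]

/-- Constant-column pattern. -/
lemma coreAt_T : CoreAt n ![![true, false], ![true, false]] 74 := by
  refine coreAt_mono (C := 8) (by norm_num) ?_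
  refine coreAt_of_sets _ UI UI ?_ ?_ 8 (fun R K hK h => core_T R K hK h)
  · intro x c c'
    simp [UI]
  · intro x c c'
    simp [UI]

/-- All-ones pattern. -/
lemma coreAt_M : CoreAt n ![![true, true], ![true, true]] 74 := by
  refine coreAt_mono (C := 8) (by norm_num) ?_
  refine coreAt_of_sets _ UG UG ?_ ?_ 8 (fun R K hK h => core_M R K hK h)
  · intro x c c'
    simp [UG]
  · intro x c c'
    simp [UG]

/-- All `2 × 2` patterns. -/
theorem coreAt_all (H : Fin 2 → Fin 2 → Bool) : CoreAt n H 74 := by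
  have hI := coreAt_I (n := n)
  have hG := coreAt_G (n := n)
  have hT := coreAt_T (n := n)
  have hM := coreAt_M (n := n)
  have key : ∀ a b c d : Bool, CoreAt n ![![a, b], ![c, d]] 74 := by
    intro a b c d
    cases a <;> cases b <;> cases c <;> cases d
    · -- 0000
      have h := coreAt_cpl hM
      convert h using 1
      decide
    · -- 0001
      have h := coreAt_cpl hG
      convert h using 1
      decide
    · -- 0010
      have h := coreAt_cpl (coreAt_cR hG)
      convert h using 1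
      decide
    · -- 0011
      have h := coreAt_rR (coreAt_tr hT)
      convert h using 1
      decide
    · -- 0100
      have h := coreAt_cpl (coreAt_rR hG)
      convert h using 1
      decide
    · -- 0101
      have h := coreAt_cR hT
      convert h using 1
      decide
    · -- 0110
      have h := coreAt_cR hI
      convert h using 1
      decide
    · -- 0111
      have h := coreAt_rR (coreAt_cR hG)
      convert h using 1
      decide
    · -- 1000
      have h := coreAt_cpl (coreAt_rR (coreAt_cR hG))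
      convert h using 1
      decide
    · -- 1001
      exact hI
    · -- 1010
      exact hT
    · -- 1011
      have h := coreAt_rR hG
      convert h using 1
      decide
    · -- 1100
      have h := coreAt_tr hT
      convert h using 1
      decide
    · -- 1101
      have h := coreAt_cR hG
      convert h using 1
      decide
    · -- 1110
      exact hG
    · -- 1111
      exact hM
  have h2 : H = ![![H 0 0, H 0 1], ![H 1 0, H 1 1]] := by
    funext i j
    fin_cases i <;> fin_cases j <;> rfl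
  rw [h2]
  exact key _ _ _ _

end Vale.Agent.Lib.P037
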